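import Crest.Agent.R140.System

/-!
Markov type for additive functionals of a reversible random walk on a finite network, through an
abelian cover.
-/

set_option autoImplicit false

namespace Crest.Agent.R140

/-- a finite network with oriented edges -/
structure Net (V E : Type) [Fintype E] where
  src : E → V
  tgt : E → V
  rev : E → E
  c : E → ℝ
  rev_rev : ∀ e, rev (rev e) = e
  src_rev : ∀ e, src (rev e) = tgt e
  c_nonneg : ∀ e, 0 ≤ c e
  c_rev : ∀ e, c (rev e) = c e
  c_sum : ∑ e, c e = 1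

namespace Net

variable {V E : Type} [Fintype E] [DecidableEq V] (N : Net V E)

omit [DecidableEq V] in
theorem tgt_rev (e : E) : N.tgt (N.rev e) = N.src e := by rw [← N.src_rev, N.rev_rev]

/-- reversal as a permutation -/
def revE : E ≃ E := ⟨N.rev, N.rev, N.rev_rev, N.rev_rev⟩

omit [DecidableEq V] in
theorem sum_rev (f : E → ℝ) : ∑ e, f (N.rev e) = ∑ e, f e := N.revE.sum_comp f

/-- stationary measure -/
noncomputable def pi (v : V) : ℝ := ∑ e, if N.src e = v then N.c e else 0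

/-- transition probability of an edge -/
noncomputable def q (e : E) : ℝ := N.c e / N.pi (N.src e)

theorem pi_nonneg (v : V) : 0 ≤ N.pi v :=
  Finset.sum_nonneg fun e _ => by split_ifs; exacts [N.c_nonneg e, le_rfl]

theorem q_nonneg (e : E) : 0 ≤ N.q e := div_nonneg (N.c_nonneg e) (N.pi_nonneg _)

theorem c_le_pi (e : E) : N.c e ≤ N.pi (N.src e) := by
  have := Finset.single_le_sum (f := fun e' => if N.src e' = N.src e then N.c e' else 0)
    (s := Finset.univ) (fun e' _ => by split_ifs; exacts [N.c_nonneg e', le_rfl])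
    (Finset.mem_univ e)
  simpa [pi] using this

theorem pi_mul_q (e : E) : N.pi (N.src e) * N.q e = N.c e := by
  unfold q
  rcases eq_or_ne (N.pi (N.src e)) 0 with h | h
  · have := N.c_le_pi e
    rw [h] at this ⊢
    rw [zero_mul]
    exact le_antisymm (N.c_nonneg e) this
  · field_simp

theorem sum_q_le (v : V) : ∑ e, (if N.src e = v then N.q e else 0) ≤ 1 := by
  have : ∑ e, (if N.src e = v then N.q e else 0) = N.pi v / N.pi v := by
    conv_rhs => rw [pi, Finset.sum_div]
    refine Finset.sum_congr rfl fun e _ => ?_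
    split_ifs with h
    · rw [q, h]; rfl
    · simp
  rw [this]
  exact div_self_le_one _

/-- expectation along paths of length `t` started at `v` -/
noncomputable def Ex : ℕ → V → (List E → ℝ) → ℝ
  | 0, _, Ψ => Ψ []
  | t + 1, v, Ψ => ∑ e, if N.src e = v then N.q e * Ex t (N.tgt e) (fun γ => Ψ (e :: γ)) else 0

/-- `γ` is a path from `v` -/
def Path : V → List E → Prop
  | _, [] => True
  | v, e :: γ => N.src e = v ∧ Path (N.tgt e) γ

theorem Ex_mono : ∀ (t : ℕ) (v : V) (Ψ₁ Ψ₂ : List E → ℝ),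
    (∀ γ, γ.length = t → N.Path v γ → Ψ₁ γ ≤ Ψ₂ γ) → N.Ex t v Ψ₁ ≤ N.Ex t v Ψ₂
  | 0, _, _, _, h => h [] rfl trivial
  | t + 1, v, Ψ₁, Ψ₂, h => by
    unfold Ex
    refine Finset.sum_le_sum fun e _ => ?_
    split_ifs with he
    · refine mul_le_mul_of_nonneg_left (Ex_mono t _ _ _ fun γ h1 h2 => h _ ?_ ⟨he, h2⟩)
        (N.q_nonneg e)
      simp [h1]
    · exact le_rfl

theorem Ex_lin : ∀ (t : ℕ) (v : V) (a b : ℝ) (Ψ₁ Ψ₂ : List E → ℝ),
    N.Ex t v (fun γ => a * Ψ₁ γ + b * Ψ₂ γ) = a * N.Ex t v Ψ₁ + b * N.Ex t v Ψ₂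
  | 0, _, _, _, _, _ => rfl
  | t + 1, v, a, b, Ψ₁, Ψ₂ => by
    unfold Ex
    rw [Finset.mul_sum, Finset.mul_sum, ← Finset.sum_add_distrib]
    refine Finset.sum_congr rfl fun e _ => ?_
    split_ifs with he
    · rw [Ex_lin t]; ring
    · simp

theorem Ex_zero (t : ℕ) (v : V) : N.Ex t v (fun _ => 0) = 0 := by
  simpa using N.Ex_lin t v 0 0 (fun _ => 0) (fun _ => 0)

theorem Ex_nonneg (t : ℕ) (v : V) (Ψ : List E → ℝ) (h : ∀ γ, 0 ≤ Ψ γ) : 0 ≤ N.Ex t v Ψ := by
  rw [← N.Ex_zero t v]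
  exact N.Ex_mono t v _ _ fun γ _ _ => h γ

theorem Ex_one_le : ∀ (t : ℕ) (v : V), N.Ex t v (fun _ => 1) ≤ 1
  | 0, _ => le_rfl
  | t + 1, v => by
    unfold Ex
    refine le_trans (Finset.sum_le_sum fun e _ => ?_) (N.sum_q_le v)
    split_ifs with he
    · exact mul_le_of_le_one_right (N.q_nonneg e) (Ex_one_le t _)
    · exact le_rfl

variable [Fintype V]

theorem sum_pi_mul (H : V → ℝ) : ∑ v, N.pi v * H v = ∑ e, N.c e * H (N.src e) := by
  simp only [pi, Finset.sum_mul]
  rw [Finset.sum_comm]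
  refine Finset.sum_congr rfl fun e _ => ?_
  rw [Finset.sum_eq_single (N.src e)]
  · simp
  · intro v _ hv
    simp [hv.symm]
  · simp

theorem sum_c_tgt (H : V → ℝ) : ∑ e, N.c e * H (N.tgt e) = ∑ v, N.pi v * H v := by
  rw [N.sum_pi_mul, ← N.sum_rev]
  simp only [N.c_rev, N.tgt_rev]

theorem sum_pi_ite (H : E → ℝ) :
    ∑ v, N.pi v * ∑ e, (if N.src e = v then N.q e * H e else 0) = ∑ e, N.c e * H e := by
  simp only [Finset.mul_sum]
  rw [Finset.sum_comm]
  refine Finset.sum_congr rfl fun e _ => ?_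
  rw [Finset.sum_eq_single (N.src e)]
  · simp [← mul_assoc, N.pi_mul_q]
  · intro v _ hv
    simp [hv.symm]
  · simp

theorem sum_pi_Ex_succ (t : ℕ) (Ψ : List E → ℝ) :
    ∑ v, N.pi v * N.Ex (t + 1) v Ψ = ∑ e, N.c e * N.Ex t (N.tgt e) (fun γ => Ψ (e :: γ)) :=
  N.sum_pi_ite _

theorem sum_pi_Ex_one : ∀ t : ℕ, ∑ v, N.pi v * N.Ex t v (fun _ => 1) = 1
  | 0 => by
    rw [N.sum_pi_mul (fun v => N.Ex 0 v fun _ => 1)]
    simp [Ex, N.c_sum]
  | t + 1 => by
    rw [N.sum_pi_Ex_succ, N.sum_c_tgt (fun v => N.Ex t v fun _ => 1), sum_pi_Ex_one t]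

variable [DecidableEq E]

/-- displacement in the abelian cover -/
def delta (e : E) : E → ℤ := Pi.single e 1 - Pi.single (N.rev e) 1

omit [DecidableEq V] [Fintype V] in
theorem delta_rev (e : E) : N.delta (N.rev e) = - N.delta e := by
  simp [delta, N.rev_rev]

omit [DecidableEq V] [Fintype V] in
theorem delta_abs (e x : E) : -1 ≤ N.delta e x ∧ N.delta e x ≤ 1 := by
  simp only [delta, Pi.sub_apply, Pi.single_apply]
  split_ifs <;> simp

/-- moving part of the walk on the cover -/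
noncomputable def Q (D : Finset (E → ℤ)) (i j : V × D) : ℝ :=
  ∑ e, if N.src e = i.1 ∧ N.tgt e = j.1 ∧ (j.2 : E → ℤ) = i.2 + N.delta e then N.q e else 0

omit [Fintype V] in
theorem Q_nonneg (D : Finset (E → ℤ)) (i j : V × D) : 0 ≤ N.Q D i j :=
  Finset.sum_nonneg fun e _ => by split_ifs; exacts [N.q_nonneg e, le_rfl]

theorem sum_Q (D : Finset (E → ℤ)) (i : V × D) (R : V × D → ℝ) :
    ∑ j, N.Q D i j * R j = ∑ e, if h : N.src e = i.1 ∧ (i.2 : E → ℤ) + N.delta e ∈ D then
      N.q e * R (N.tgt e, ⟨_, h.2⟩) else 0 := by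
  simp only [Q, Finset.sum_mul]
  rw [Finset.sum_comm]
  refine Finset.sum_congr rfl fun e _ => ?_
  split_ifs with h
  · rw [Finset.sum_eq_single (N.tgt e, ⟨_, h.2⟩)]
    · simp [h.1]
    · rintro ⟨v, y⟩ _ hne
      rw [if_neg, zero_mul]
      rintro ⟨-, h2, h3⟩
      apply hne
      simp only at h2 h3
      exact Prod.ext h2.symm (Subtype.ext h3)
    · simp
  · refine Finset.sum_eq_zero fun j _ => ?_
    rw [if_neg, zero_mul]
    rintro ⟨h1, -, h3⟩
    exact h ⟨h1, h3 ▸ j.2.2⟩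

theorem sum_Q_le (D : Finset (E → ℤ)) (i : V × D) : ∑ j, N.Q D i j ≤ 1 := by
  have := N.sum_Q D i fun _ => 1
  simp only [mul_one] at this
  rw [this]
  refine le_trans (Finset.sum_le_sum fun e _ => ?_) (N.sum_q_le i.1)
  split_ifs with h1 h2 h2
  · exact le_rfl
  · exact absurd h1.1 h2
  · exact N.q_nonneg e
  · exact le_rfl

omit [Fintype V] in
theorem Q_rev (D : Finset (E → ℤ)) (i j : V × D) :
    N.pi i.1 * N.Q D i j = N.pi j.1 * N.Q D j i := by
  have key : ∀ i j : V × D, N.pi i.1 * N.Q D i j = ∑ e,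
      if N.src e = i.1 ∧ N.tgt e = j.1 ∧ (j.2 : E → ℤ) = i.2 + N.delta e then N.c e else 0 := by
    intro i j
    simp only [Q, Finset.mul_sum]
    refine Finset.sum_congr rfl fun e _ => ?_
    split_ifs with h
    · rw [← h.1, N.pi_mul_q]
    · simp
  rw [key, key, ← N.sum_rev]
  refine Finset.sum_congr rfl fun e _ => ?_
  simp only [N.src_rev, N.tgt_rev, N.delta_rev, N.c_rev]
  refine if_congr ⟨?_, ?_⟩ rfl rfl
  · rintro ⟨h1, h2, h3⟩
    exact ⟨h2, h1, by rw [h3]; abel⟩
  · rintro ⟨h1, h2, h3⟩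
    exact ⟨h2, h1, by rw [h3]; abel⟩

/-- the walk on the cover -/
noncomputable def P (D : Finset (E → ℤ)) : Matrix (V × D) (V × D) ℝ := fun i j =>
  N.Q D i j + if i = j then 1 - ∑ k, N.Q D i k else 0

theorem Q_le_P (D : Finset (E → ℤ)) (i j : V × D) : N.Q D i j ≤ N.P D i j := by
  unfold P
  have := N.sum_Q_le D i
  split_ifs <;> linarith

theorem P_nonneg (D : Finset (E → ℤ)) (i j : V × D) : 0 ≤ N.P D i j :=
  (N.Q_nonneg D i j).trans (N.Q_le_P D i j)

theorem P_pow_nonneg (D : Finset (E → ℤ)) : ∀ (t : ℕ) (i j : V × D), 0 ≤ (N.P D ^ t) i j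
  | 0, i, j => by
    rw [pow_zero, Matrix.one_apply]
    split_ifs <;> norm_num
  | t + 1, i, j => by
    rw [pow_succ', Matrix.mul_apply]
    exact Finset.sum_nonneg fun k _ => mul_nonneg (N.P_nonneg D i k) (P_pow_nonneg D t k j)

theorem sum_P (D : Finset (E → ℤ)) (i : V × D) : ∑ j, N.P D i j = 1 := by
  simp [P, Finset.sum_add_distrib]

variable {G : Type*} [AddCommGroup G] [Module ℝ G]

/-- potential on the cover -/
noncomputable def pot (g : E → G) (y : E → ℤ) : G := ∑ e, ((y e : ℝ) / 2) • g e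

omit [DecidableEq V] [Fintype V] in
theorem pot_add_delta (g : E → G) (hg : ∀ e, g (N.rev e) = - g e) (y : E → ℤ) (e : E) :
    pot g (y + N.delta e) = pot g y + g e := by
  simp only [pot, delta, Pi.add_apply, Pi.sub_apply, Int.cast_add, Int.cast_sub, add_div, sub_div,
    add_smul, sub_smul, Finset.sum_add_distrib, Finset.sum_sub_distrib, add_right_inj]
  have key : ∀ e₀ : E, ∑ x, ((((Pi.single e₀ 1 : E → ℤ) x : ℤ) : ℝ) / 2) • g x = (1 / 2 : ℝ) • g e₀ := by
    intro e₀
    rw [Finset.sum_eq_single e₀]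
    · simp
    · intro x _ hx
      simp [hx]
    · simp
  rw [key, key, hg]
  module

/-- a box -/
noncomputable def box (a b : ℤ) : Finset (E → ℤ) := Fintype.piFinset fun _ => Finset.Ico a b

theorem Ex_le_pow (g : E → G) (hg : ∀ e, g (N.rev e) = - g e) (H : G → ℝ) (hH : ∀ x, 0 ≤ H x)
    (M : ℤ) : ∀ (t : ℕ) (i : V × (box (E := E) 0 M)), (i.2 : E → ℤ) ∈ box (E := E) t (M - t) →
      N.Ex t i.1 (fun γ => H (pot g i.2 + (γ.map g).sum)) ≤
        ∑ j, (N.P (box 0 M) ^ t) i j * H (pot g j.2)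
  | 0, i, _ => by
    simp [Ex, Matrix.one_apply]
  | t + 1, i, hi => by
    have hmem : ∀ e, (i.2 : E → ℤ) + N.delta e ∈ box (E := E) t (M - t) := by
      intro e
      simp only [box, Fintype.mem_piFinset, Finset.mem_Ico, Pi.add_apply] at hi ⊢
      intro x
      have h1 := hi x
      have h2 := N.delta_abs e x
      push_cast at h1
      omega
    have hmem' : ∀ e, (i.2 : E → ℤ) + N.delta e ∈ box (E := E) 0 M := by
      intro e
      have := hmem e
      simp only [box, Fintype.mem_piFinset, Finset.mem_Ico] at this ⊢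
      intro x
      have h1 := this x
      omega
    have e1 : ∑ j, (N.P (box 0 M) ^ (t + 1)) i j * H (pot g j.2) =
        ∑ k, N.P (box 0 M) i k * ∑ j, (N.P (box 0 M) ^ t) k j * H (pot g j.2) := by
      simp only [pow_succ', Matrix.mul_apply, Finset.sum_mul, Finset.mul_sum, mul_assoc]
      exact Finset.sum_comm
    have e2 : ∑ k, N.Q (box 0 M) i k * ∑ j, (N.P (box 0 M) ^ t) k j * H (pot g j.2) ≤
        ∑ k, N.P (box 0 M) i k * ∑ j, (N.P (box 0 M) ^ t) k j * H (pot g j.2) :=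
      Finset.sum_le_sum fun k _ => mul_le_mul_of_nonneg_right (N.Q_le_P _ i k)
        (Finset.sum_nonneg fun j _ => mul_nonneg (N.P_pow_nonneg _ t k j) (hH _))
    rw [e1]
    refine le_trans ?_ e2
    rw [N.sum_Q]
    unfold Ex
    refine Finset.sum_le_sum fun e _ => ?_
    by_cases he : N.src e = i.1
    · rw [if_pos he, dif_pos ⟨he, hmem' e⟩]
      refine mul_le_mul_of_nonneg_left ?_ (N.q_nonneg e)
      have := Ex_le_pow g hg H hH M t (N.tgt e, ⟨_, hmem' e⟩) (hmem e)
      simp only [N.pot_add_delta g hg] at this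
      simpa only [List.map_cons, List.sum_cons, add_assoc] using this
    · rw [if_neg he, dif_neg fun h => he h.1]

omit [DecidableEq V] [Fintype V] in
theorem exists_box (t : ℕ) : ∃ M : ℕ, 0 < (box (E := E) 0 M).card ∧
    (box (E := E) 0 M).card ≤ 2 * (box (E := E) t (M - t)).card := by
  set n := Fintype.card E with hn
  refine ⟨4 * t * n + 2 * t + 1, ?_, ?_⟩
  · simp only [box, Fintype.card_piFinset, Int.card_Ico, Finset.prod_const, Finset.card_univ]
    refine pow_pos ?_ _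
    omega
  · simp only [box, Fintype.card_piFinset, Int.card_Ico, Finset.prod_const, Finset.card_univ, ← hn]
    have e1 : (((4 * t * n + 2 * t + 1 : ℕ) : ℤ) - 0).toNat = 4 * t * n + 2 * t + 1 := by omega
    have e2 : (((4 * t * n + 2 * t + 1 : ℕ) : ℤ) - t - t).toNat = 4 * t * n + 1 := by omega
    rw [e1, e2]
    set M : ℝ := 4 * t * n + 2 * t + 1 with hM
    have hM0 : 0 < M := by positivity
    have ht : (0 : ℝ) ≤ t := Nat.cast_nonneg t
    have hn0 : (0 : ℝ) ≤ n := Nat.cast_nonneg n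
    have hb := one_add_mul_le_pow (a := -(2 * t / M)) (by
      have : 2 * t / M ≤ 1 := by rw [div_le_one hM0, hM]; nlinarith [mul_nonneg ht hn0]
      linarith) n
    have h2 : (1 : ℝ) / 2 ≤ 1 + n * -(2 * t / M) := by
      have : n * (2 * t / M) ≤ 1 / 2 := by
        rw [← mul_div_assoc, div_le_iff₀ hM0, hM]; nlinarith
      linarith
    have h3 : 1 + -(2 * t / M) = (4 * t * n + 1) / M := by
      rw [hM]; field_simp; ring
    rw [h3, div_pow] at hb
    have h4 := h2.trans hb
    rw [le_div_iff₀ (by positivity)] at h4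
    have h5 : M ^ n ≤ 2 * (4 * t * n + 1) ^ n := by linarith
    rw [hM] at h5
    exact_mod_cast h5

theorem cover {p K : ℝ} (hp : 0 < p) (hK : 0 ≤ K) (ρ : G → ℝ) (hρ : ∀ x, 0 ≤ ρ x) (hρ0 : ρ 0 = 0)
    (hmt : MT p K ρ) (g : E → G) (hg : ∀ e, g (N.rev e) = - g e) (t : ℕ) (ht : 1 ≤ t) :
    ∑ v, N.pi v * N.Ex t v (fun γ => ρ (γ.map g).sum ^ p) ≤
      2 * (K ^ p * t * ∑ e, N.c e * ρ (g e) ^ p) := by
  obtain ⟨M, hM0, hM⟩ := exists_box (E := E) t
  set D := box (E := E) 0 M with hD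
  have hD0 : (0 : ℝ) < D.card := by exact_mod_cast hM0
  have hpi1 : ∑ v, N.pi v = 1 := by
    have := N.sum_pi_mul fun _ => 1
    simpa [N.c_sum] using this
  have main := hmt (V × D) (fun i => N.pi i.1 / D.card) (N.P D)
    (fun i => div_nonneg (N.pi_nonneg _) hD0.le)
    (by
      rw [Fintype.sum_prod_type]
      simp only [Finset.sum_const, Finset.card_univ, Fintype.card_coe, nsmul_eq_mul]
      rw [← hpi1]
      refine Finset.sum_congr rfl fun v _ => ?_
      field_simp)
    (N.P_nonneg D) (N.sum_P D)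
    (fun i j => by
      by_cases hij : i = j
      · rw [hij]
      · simp only [P, if_neg hij, if_neg (Ne.symm hij), add_zero]
        rw [div_mul_eq_mul_div, div_mul_eq_mul_div, N.Q_rev])
    (fun i => pot g i.2) t ht
  have hup : ∑ i : V × D, ∑ j : V × D, N.pi i.1 / D.card * N.P D i j *
      ρ (pot g j.2 - pot g i.2) ^ p ≤ ∑ e, N.c e * ρ (g e) ^ p := by
    have h1 : ∀ i : V × D, ∑ j : V × D, N.P D i j * ρ (pot g j.2 - pot g i.2) ^ p ≤
        ∑ e, if N.src e = i.1 then N.q e * ρ (g e) ^ p else 0 := by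
      intro i
      have : ∑ j : V × D, N.P D i j * ρ (pot g j.2 - pot g i.2) ^ p =
          ∑ j : V × D, N.Q D i j * ρ (pot g j.2 - pot g i.2) ^ p := by
        refine Finset.sum_congr rfl fun j _ => ?_
        unfold P
        split_ifs with h
        · rw [h, sub_self, hρ0, Real.zero_rpow hp.ne', mul_zero, mul_zero]
        · rw [add_zero]
      rw [this, N.sum_Q]
      refine Finset.sum_le_sum fun e _ => ?_
      split_ifs with h1 h2 h2
      · simp only [N.pot_add_delta g hg, add_sub_cancel_left, le_refl]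
      · exact absurd h1.1 h2
      · exact mul_nonneg (N.q_nonneg e) (Real.rpow_nonneg (hρ _) _)
      · exact le_rfl
    calc _ = ∑ i : V × D, N.pi i.1 / D.card *
          ∑ j : V × D, N.P D i j * ρ (pot g j.2 - pot g i.2) ^ p := by
          simp only [Finset.mul_sum, mul_assoc]
      _ ≤ ∑ i : V × D, N.pi i.1 / D.card *
          ∑ e, if N.src e = i.1 then N.q e * ρ (g e) ^ p else 0 :=
          Finset.sum_le_sum fun i _ => mul_le_mul_of_nonneg_left (h1 i)
            (div_nonneg (N.pi_nonneg _) hD0.le)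
      _ = ∑ v, N.pi v * ∑ e, if N.src e = v then N.q e * ρ (g e) ^ p else 0 := by
          rw [Fintype.sum_prod_type]
          refine Finset.sum_congr rfl fun v _ => ?_
          change ∑ _y : D, N.pi v / D.card *
            ∑ e, (if N.src e = v then N.q e * ρ (g e) ^ p else 0) = _
          rw [Finset.sum_const, Finset.card_univ, Fintype.card_coe, nsmul_eq_mul]
          field_simp
      _ = _ := N.sum_pi_ite _
  set A : V → ℝ := fun v => N.Ex t v (fun γ => ρ (γ.map g).sum ^ p) with hA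
  have hA0 : ∀ v, 0 ≤ A v := fun v => N.Ex_nonneg t v _ fun γ => Real.rpow_nonneg (hρ _) _
  have hlow : ∑ i : V × D, N.pi i.1 / D.card *
      (if (i.2 : E → ℤ) ∈ box (E := E) t (M - t) then A i.1 else 0) ≤
      ∑ i : V × D, ∑ j : V × D, N.pi i.1 / D.card * (N.P D ^ t) i j *
        ρ (pot g j.2 - pot g i.2) ^ p := by
    refine Finset.sum_le_sum fun i _ => ?_
    simp only [mul_assoc, ← Finset.mul_sum]
    refine mul_le_mul_of_nonneg_left ?_ (div_nonneg (N.pi_nonneg _) hD0.le)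
    split_ifs with h
    · have := N.Ex_le_pow g hg (fun x => ρ (x - pot g i.2) ^ p)
        (fun x => Real.rpow_nonneg (hρ _) _) M t i h
      simpa only [add_sub_cancel_left] using this
    · exact Finset.sum_nonneg fun j _ =>
        mul_nonneg (N.P_pow_nonneg D t i j) (Real.rpow_nonneg (hρ _) _)
  have hcard : ∑ y : D, (if (y : E → ℤ) ∈ box (E := E) t (M - t) then (1 : ℝ) else 0) =
      (box (E := E) t (M - t)).card := by
    rw [Finset.sum_coe_sort D (fun y => if y ∈ box (E := E) t (M - t) then (1 : ℝ) else 0),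
      Finset.sum_ite_mem, Finset.inter_eq_right.2, Finset.sum_const, nsmul_eq_mul, mul_one]
    intro y hy
    simp only [hD, box, Fintype.mem_piFinset, Finset.mem_Ico] at hy ⊢
    intro x
    have := hy x
    omega
  have heq : ∑ i : V × D, N.pi i.1 / D.card *
      (if (i.2 : E → ℤ) ∈ box (E := E) t (M - t) then A i.1 else 0) =
      ((box (E := E) t (M - t)).card / D.card) * ∑ v, N.pi v * A v := by
    rw [Fintype.sum_prod_type, Finset.mul_sum]
    refine Finset.sum_congr rfl fun v _ => ?_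
    rw [← hcard, Finset.sum_div, Finset.sum_mul]
    refine Finset.sum_congr rfl fun y _ => ?_
    split_ifs
    · simp only; ring
    · simp
  have hhalf : (1 : ℝ) / 2 ≤ (box (E := E) t (M - t)).card / D.card := by
    rw [div_le_div_iff₀ (by norm_num) hD0]
    have : (D.card : ℝ) ≤ 2 * (box (E := E) t (M - t)).card := by exact_mod_cast hM
    linarith
  have hS0 : 0 ≤ ∑ v, N.pi v * A v :=
    Finset.sum_nonneg fun v _ => mul_nonneg (N.pi_nonneg v) (hA0 v)
  have h6 := mul_le_mul_of_nonneg_left hup (show 0 ≤ K ^ p * t by positivity)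
  rw [heq] at hlow
  have h7 := mul_le_mul_of_nonneg_right hhalf hS0
  linarith

section letters

variable {L : Type} [DecidableEq L] (l : E → L)

/-- the first edge of `γ` has the letter of `e` -/
def hit (e : E) : List E → ℝ
  | [] => 0
  | e' :: _ => if l e = l e' then 1 else 0

/-- number of repeated letters -/
def bad : List E → ℝ
  | [] => 0
  | e :: γ => hit l e γ + bad γ

omit [Fintype E] [DecidableEq E] in
theorem hit_nonneg (e : E) : ∀ γ, 0 ≤ hit l e γ
  | [] => le_rfl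
  | e' :: _ => by simp only [hit]; split_ifs <;> norm_num

omit [Fintype E] [DecidableEq E] in
theorem bad_nonneg : ∀ γ, 0 ≤ bad l γ
  | [] => le_rfl
  | e :: γ => add_nonneg (hit_nonneg l e γ) (bad_nonneg γ)

omit [Fintype E] [DecidableEq E] in
theorem one_le_bad : ∀ γ : List E, ¬ List.IsChain (fun e e' => l e ≠ l e') γ → 1 ≤ bad l γ
  | [], h => absurd List.isChain_nil h
  | [e], h => absurd (List.isChain_singleton e) h
  | e :: e' :: γ, h => by
    rw [List.isChain_cons_cons, not_and_or] at h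
    rcases h with h | h
    · have h1 := bad_nonneg l (e' :: γ)
      have h2 : hit l e (e' :: γ) = 1 := by simp [hit, not_not.1 h]
      rw [bad, h2]
      linarith
    · have h1 := one_le_bad (e' :: γ) h
      have h2 := hit_nonneg l e (e' :: γ)
      rw [bad]
      linarith

omit [DecidableEq E] in
theorem sum_hit_le (hl : ∀ e, l (N.rev e) = l e) (m : V → ℝ) (hm0 : ∀ v, 0 ≤ m v)
    (hm : ∀ s v, ∑ e, (if N.src e = v ∧ l e = s then N.c e else 0) ≤ m v) (t : ℕ) :
    ∑ e, N.c e * N.Ex t (N.tgt e) (hit l e) ≤ ∑ v, m v := by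
  rcases t with _ | t
  · simp only [Ex, hit, mul_zero, Finset.sum_const_zero]
    exact Finset.sum_nonneg fun v _ => hm0 v
  have h1 : ∀ e, N.Ex (t + 1) (N.tgt e) (hit l e) ≤
      ∑ e', if N.src e' = N.tgt e ∧ l e = l e' then N.q e' else 0 := by
    intro e
    unfold Ex
    refine Finset.sum_le_sum fun e' _ => ?_
    by_cases h : N.src e' = N.tgt e
    · by_cases h' : l e = l e'
      · simp only [h, h', hit, if_true, and_self]
        exact mul_le_of_le_one_right (N.q_nonneg _) (N.Ex_one_le _ _)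
      · simp only [h, h', hit, if_true, if_false, and_false, N.Ex_zero, mul_zero, le_refl]
    · simp [h]
  calc _ ≤ ∑ e, N.c e * ∑ e', if N.src e' = N.tgt e ∧ l e = l e' then N.q e' else 0 :=
        Finset.sum_le_sum fun e _ => mul_le_mul_of_nonneg_left (h1 e) (N.c_nonneg e)
    _ = ∑ e, N.c e * ∑ e', if N.src e' = N.src e ∧ l e = l e' then N.q e' else 0 := by
        rw [← N.sum_rev]
        simp only [N.c_rev, N.tgt_rev, hl]
    _ = ∑ e', N.q e' * ∑ e, if N.src e = N.src e' ∧ l e = l e' then N.c e else 0 := by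
        simp only [Finset.mul_sum]
        rw [Finset.sum_comm]
        refine Finset.sum_congr rfl fun e' _ => Finset.sum_congr rfl fun e _ => ?_
        by_cases h : N.src e = N.src e' ∧ l e = l e'
        · rw [if_pos h, if_pos ⟨h.1.symm, h.2⟩, mul_comm]
        · rw [if_neg h, if_neg fun h' => h ⟨h'.1.symm, h'.2⟩, mul_zero, mul_zero]
    _ ≤ ∑ e', N.q e' * m (N.src e') :=
        Finset.sum_le_sum fun e' _ => mul_le_mul_of_nonneg_left (hm _ _) (N.q_nonneg _)
    _ = ∑ v, (∑ e', if N.src e' = v then N.q e' else 0) * m v := by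
        simp only [Finset.sum_mul]
        rw [Finset.sum_comm]
        refine Finset.sum_congr rfl fun e _ => ?_
        rw [Finset.sum_eq_single (N.src e)]
        · simp
        · intro v _ hv
          simp [hv.symm]
        · simp
    _ ≤ ∑ v, m v := Finset.sum_le_sum fun v _ => mul_le_of_le_one_left (hm0 v) (N.sum_q_le v)

omit [DecidableEq E] in
theorem sum_bad_le (hl : ∀ e, l (N.rev e) = l e) (m : V → ℝ) (hm0 : ∀ v, 0 ≤ m v)
    (hm : ∀ s v, ∑ e, (if N.src e = v ∧ l e = s then N.c e else 0) ≤ m v) :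
    ∀ t : ℕ, ∑ v, N.pi v * N.Ex t v (bad l) ≤ t * ∑ v, m v
  | 0 => by simp [Ex, bad]
  | t + 1 => by
    rw [N.sum_pi_Ex_succ]
    have h1 : ∀ e, N.Ex t (N.tgt e) (fun γ => bad l (e :: γ)) =
        N.Ex t (N.tgt e) (hit l e) + N.Ex t (N.tgt e) (bad l) := by
      intro e
      have := N.Ex_lin t (N.tgt e) 1 1 (hit l e) (bad l)
      simpa only [one_mul, bad] using this
    simp only [h1, mul_add, Finset.sum_add_distrib]
    rw [N.sum_c_tgt (fun v => N.Ex t v (bad l))]
    have h2 := sum_bad_le hl m hm0 hm t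
    have h3 := N.sum_hit_le l hl m hm0 hm t
    push_cast
    linarith

theorem cover_bound {p K : ℝ} (hp : 0 < p) (hK : 0 ≤ K) (ρ : G → ℝ) (hρ : ∀ x, 0 ≤ ρ x)
    (hρ0 : ρ 0 = 0) (hmt : MT p K ρ) (g : E → G) (hg : ∀ e, g (N.rev e) = - g e) (t : ℕ)
    (ht : 1 ≤ t) (hl : ∀ e, l (N.rev e) = l e) (m : V → ℝ) (hm0 : ∀ v, 0 ≤ m v)
    (hm : ∀ s v, ∑ e, (if N.src e = v ∧ l e = s then N.c e else 0) ≤ m v)
    (hsmall : t * ∑ v, m v ≤ 1 / 2) {A U : ℝ} (hA : 0 ≤ A) (hU : ∀ e, ρ (g e) ≤ U)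
    (hlow : ∀ v γ, γ.length = t → N.Path v γ → List.IsChain (fun e e' => l e ≠ l e') γ →
      A ≤ ρ (γ.map g).sum) :
    A ^ p ≤ 4 * (K ^ p * t * U ^ p) := by
  have h1 := N.cover hp hK ρ hρ hρ0 hmt g hg t ht
  have h2 : ∑ e, N.c e * ρ (g e) ^ p ≤ U ^ p := by
    calc _ ≤ ∑ e, N.c e * U ^ p := Finset.sum_le_sum fun e _ =>
          mul_le_mul_of_nonneg_left (Real.rpow_le_rpow (hρ _) (hU e) hp.le) (N.c_nonneg e)
      _ = U ^ p := by rw [← Finset.sum_mul, N.c_sum, one_mul]
  have hAp : 0 ≤ A ^ p := Real.rpow_nonneg hA _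
  have h3 : ∀ v, A ^ p * N.Ex t v (fun _ => 1) + (-A ^ p) * N.Ex t v (bad l) ≤
      N.Ex t v (fun γ => ρ (γ.map g).sum ^ p) := by
    intro v
    rw [← N.Ex_lin]
    refine N.Ex_mono t v _ _ fun γ h1 h2 => ?_
    by_cases hc : List.IsChain (fun e e' => l e ≠ l e') γ
    · have := Real.rpow_le_rpow hA (hlow v γ h1 h2 hc) hp.le
      nlinarith [bad_nonneg l γ]
    · have := one_le_bad l γ hc
      have h0 : 0 ≤ ρ (γ.map g).sum ^ p := Real.rpow_nonneg (hρ _) _
      nlinarith
  have h4 : A ^ p * (∑ v, N.pi v * N.Ex t v (fun _ => 1)) +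
      (-A ^ p) * ∑ v, N.pi v * N.Ex t v (bad l) ≤
      ∑ v, N.pi v * N.Ex t v (fun γ => ρ (γ.map g).sum ^ p) := by
    rw [Finset.mul_sum, Finset.mul_sum, ← Finset.sum_add_distrib]
    refine Finset.sum_le_sum fun v _ => ?_
    have := mul_le_mul_of_nonneg_left (h3 v) (N.pi_nonneg v)
    linarith
  rw [N.sum_pi_Ex_one] at h4
  have h5 := (N.sum_bad_le l hl m hm0 hm t).trans hsmall
  have h6 := mul_le_mul_of_nonneg_left h2 (show 0 ≤ K ^ p * t by positivity)
  nlinarith

end letters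

end Net

end Crest.Agent.R140
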