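import Crest.Agent.R140.Words
import Crest.Agent.R140.Cover

/-!
The reversible chain on order embeddings and the final contradiction.
-/

set_option autoImplicit false

namespace Crest.Agent.R140

open Crest.AnalysisR

/-- extension by zero -/
noncomputable def extz (P : Finset Lam) (v : ↥P → ℕ) (y : Lam) : ℕ :=
  if h : y ∈ P then v ⟨y, h⟩ else 0

theorem lift_symm_lift (f : ℝ ≃o ℝ) (y : Lam) : lift f.symm (lift f y) = y := by
  simp [lift]

variable {NN : ∀ (Λ : Type) [LinearOrder Λ], Seminorm ℝ (Λ →₀ ℝ)} {p K θ : ℝ}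

theorem main_ineq (h : Spr p K θ NN) (hp : 0 < p) (hK : 0 ≤ K) (t N : ℕ) {m : ℕ → ℕ →₀ ℝ}
    (hm : IsPat NN N m) {A U : ℝ} (hA0 : 0 ≤ A) (hU : NN ℕ (alt N m) ≤ U)
    (hA : ∀ (x : Fin (t + 1) → ℤ → ℝ) (o : Fin (t + 1) → ℤ), (∀ l, |o l| ≤ ((2 * t + 1 : ℕ) : ℤ)) →
      (∀ l l' j, x l j < x l' (j + 1)) → A ≤ NN Lam (∑ l, term N m (x l) (o l))) :
    A ^ p ≤ 4 * (K ^ p * ((t + 1 : ℕ) : ℝ) * U ^ p) := by
  classical
  set d : ℕ := 4 * (t + 1) with hd
  have hd0 : (0 : ℝ) < d := by rw [hd]; positivity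
  obtain ⟨F⟩ := exists_frame d
  obtain ⟨P, hP⟩ := F.exists_finset N m (t + 1)
  set Q : Finset Lam := P ∪ Finset.univ.biUnion fun s : Fin d => P.image (lift (F.h s).symm)
    with hQ
  have hPQ : ∀ y ∈ P, y ∈ Q := fun y hy => Finset.mem_union_left _ hy
  have hPQ' : ∀ s, ∀ y ∈ P, lift (F.h s).symm y ∈ Q := fun s y hy =>
    Finset.mem_union_right _ (Finset.mem_biUnion.2 ⟨s, Finset.mem_univ _,
      Finset.mem_image_of_mem _ hy⟩)
  set ι₀ : ↥P → ℕ := fun x => rk Q (x : Lam) with hι₀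
  set ι : Fin d → ↥P → ℕ := fun s x => rk Q (lift (F.h s).symm x) with hι
  have hι₀m : StrictMono ι₀ := fun a b hab =>
    rk_strictMonoOn Q (hPQ _ a.2) (hPQ _ b.2) hab
  have hιm : ∀ s, StrictMono (ι s) := fun s a b hab =>
    rk_strictMonoOn Q (hPQ' s _ a.2) (hPQ' s _ b.2)
      (lift_strictMono (F.h s).symm.strictMono hab)
  obtain ⟨I, _, w, k, hw, hw1, hk, hday⟩ := day Winf (fun k => k ∘ ι₀) (fun s k => k ∘ ι s)
    (fun s => Winf_map_eq _ _ (hιm s) hι₀m) _ (Winf_mono (Q.card + 1))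
    (show (0 : ℝ) < 1 / d by positivity)
  set raw : Fin d × I × Bool → (↥P → ℕ) := fun e =>
    if e.2.2 then k e.2.1 ∘ ι₀ else k e.2.1 ∘ ι e.1 with hraw
  set T : Finset (↥P → ℕ) := Finset.univ.image raw with hT
  have hmemT : ∀ e, raw e ∈ T := fun e => Finset.mem_image_of_mem _ (Finset.mem_univ _)
  let Nt : Net ↥T (Fin d × I × Bool) :=
    { src := fun e => ⟨raw e, hmemT e⟩
      tgt := fun e => ⟨raw (e.1, e.2.1, !e.2.2), hmemT _⟩
      rev := fun e => (e.1, e.2.1, !e.2.2)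
      c := fun e => w e.2.1 / (2 * d)
      rev_rev := fun e => by simp
      src_rev := fun _ => rfl
      c_nonneg := fun e => div_nonneg (hw _) (by positivity)
      c_rev := fun _ => rfl
      c_sum := by
        simp only [Fintype.sum_prod_type, Finset.sum_const, Finset.card_univ, Fintype.card_bool,
          Fintype.card_fin, nsmul_eq_mul, ← Finset.mul_sum, ← Finset.sum_div, hw1]
        field_simp
        norm_num }
  have hmono : ∀ e, StrictMonoOn (extz P (raw e)) P := by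
    intro e a ha b hb hab
    have ha' : a ∈ P := ha
    have hb' : b ∈ P := hb
    simp only [extz, dif_pos ha', dif_pos hb', hraw]
    have hlt : (⟨a, ha'⟩ : ↥P) < ⟨b, hb'⟩ := hab
    split_ifs
    · exact hk _ (Nat.lt_succ_of_le (rk_le _ _)) (Nat.lt_succ_of_le (rk_le _ _)) (hι₀m hlt)
    · exact hk _ (Nat.lt_succ_of_le (rk_le _ _)) (Nat.lt_succ_of_le (rk_le _ _)) (hιm _ hlt)
  set lab : Fin d × I × Bool → Fin d × Bool := fun e => (e.1, e.2.2) with hlab
  have hstep : ∀ e, ∀ y ∈ P, lift (F.hh (lab e)).symm y ∈ P →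
      extz P (raw (e.1, e.2.1, !e.2.2)) y = extz P (raw e) (lift (F.hh (lab e)).symm y) := by
    rintro ⟨s, i, _ | _⟩ y hy hy'
    · simp only [extz, dif_pos hy, dif_pos hy', hraw, hι, hι₀]
      simp [hlab, Frame.hh, lift_symm_lift]
    · simp only [extz, dif_pos hy, dif_pos hy', hraw, hι, hι₀]
      simp [hlab, Frame.hh]
  set g : Fin d × I × Bool → ℕ →₀ ℝ := fun e =>
    (F.gam N m (lab e)).mapDomain (extz P (raw e)) with hg
  have hgam : ∀ σ, F.cw N m [σ] = F.gam N m σ := fun σ => by simp [Frame.cw]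
  have hgamP : ∀ σ, (F.gam N m σ).support ⊆ P := fun σ =>
    hgam σ ▸ (hP [σ] (by simp)).1
  have hanti : ∀ s i, g (s, i, false) = - g (s, i, true) := by
    intro s i
    simp only [hg, hlab]
    rw [F.gam_false, ← Finsupp.lmapDomain_apply ℝ ℝ, map_neg, Finsupp.lmapDomain_apply,
      ← Finsupp.mapDomain_comp]
    congr 1
    refine Finsupp.mapDomain_congr fun y hy => ?_
    have h2 := (hP [(s, true)] (by simp)).2 (s, false) y (by rw [hgam]; exact hy)
    exact (hstep (s, i, false) y (hgamP _ hy) h2).symm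
  have hpath : ∀ (γ : List (Fin d × I × Bool)) (v : ↥T), γ.length ≤ t + 1 → Nt.Path v γ →
      (γ.map g).sum = (F.cw N m (γ.map lab)).mapDomain (extz P v) := by
    intro γ
    induction γ with
    | nil => intro v _ _; simp [Frame.cw]
    | cons e γ ih =>
      intro v hl hp
      obtain ⟨rfl, hp⟩ := hp
      have hl' : γ.length ≤ t + 1 := by simp only [List.length_cons] at hl; omega
      rw [List.map_cons, List.sum_cons, List.map_cons, Frame.cw, Finsupp.mapDomain_add,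
        ih _ hl' hp, ← Finsupp.mapDomain_comp]
      congr 1
      refine Finsupp.mapDomain_congr fun y hy => ?_
      have h2 := hP (γ.map lab) (by simpa using hl')
      exact hstep e y (h2.1 hy) (h2.2 _ y hy)
  set μ₀ : (↥P → ℕ) → ℝ := fun v => ∑ i, w i * (if k i ∘ ι₀ = v then 1 else 0) with hμ₀
  set μ : Fin d → (↥P → ℕ) → ℝ := fun s v => ∑ i, w i * (if k i ∘ ι s = v then 1 else 0) with hμ
  have hμ₀0 : ∀ v, 0 ≤ μ₀ v := fun v =>
    Finset.sum_nonneg fun i _ => mul_nonneg (hw i) (by split_ifs <;> norm_num)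
  refine Nt.cover_bound (fun e => e.1) hp hK (NN ℕ) (apply_nonneg _) (map_zero _) h.mt g ?_ (t + 1)
    (by omega) (fun _ => rfl) (fun v => μ₀ v / d + ∑ s, |μ s v - μ₀ v|) ?_ ?_ ?_ hA0 ?_ ?_
  · rintro ⟨s, i, _ | _⟩
    · rw [hanti, neg_neg]; rfl
    · exact hanti s i
  · intro v
    exact add_nonneg (div_nonneg (hμ₀0 _) hd0.le) (Finset.sum_nonneg fun _ _ => abs_nonneg _)
  · intro s v
    have e1 : ∑ e, (if Nt.src e = v ∧ e.1 = s then Nt.c e else 0) =
        (μ₀ v + μ s v) / (2 * d) := by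
      rw [Fintype.sum_prod_type, Finset.sum_eq_single s]
      · rw [Fintype.sum_prod_type, hμ₀, hμ, ← Finset.sum_add_distrib, Finset.sum_div]
        refine Finset.sum_congr rfl fun i _ => ?_
        rw [Fintype.sum_bool]
        simp only [Nt, Subtype.ext_iff, hraw, and_true, if_true, Bool.false_eq_true, if_false]
        split_ifs <;> ring
      · intro s' _ hs'
        simp [hs']
      · simp
    rw [e1]
    have h1 : |μ s v - μ₀ v| ≤ ∑ s, |μ s v - μ₀ v| :=
      Finset.single_le_sum (f := fun s => |μ s v - μ₀ v|) (fun _ _ => abs_nonneg _)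
        (Finset.mem_univ s)
    have h2 := le_abs_self (μ s v - μ₀ v)
    have h3 : (1 : ℝ) ≤ 2 * d := by
      have : (1 : ℝ) ≤ d := by rw [hd]; push_cast; linarith [(Nat.cast_nonneg t : (0 : ℝ) ≤ t)]
      linarith
    have h4 : (μ₀ v + μ s v) / (2 * d) = μ₀ v / d + (μ s v - μ₀ v) / (2 * d) := by
      field_simp; ring
    have h5 : (μ s v - μ₀ v) / (2 * d) ≤ |μ s v - μ₀ v| :=
      (div_le_div_of_nonneg_right h2 (by positivity)).trans (div_le_self (abs_nonneg _) h3)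
    linarith
  · have h1 : ∑ v : ↥T, μ₀ v ≤ 1 := by
      rw [Finset.sum_coe_sort T μ₀, hμ₀, Finset.sum_comm]
      refine le_trans (Finset.sum_le_sum fun i _ => ?_) hw1.le
      rw [← Finset.mul_sum]
      refine mul_le_of_le_one_right (hw i) ?_
      rw [Finset.sum_ite_eq]
      split_ifs <;> norm_num
    have h2 : ∑ v : ↥T, ∑ s, |μ s v - μ₀ v| ≤ 1 / d := by
      rw [Finset.sum_coe_sort T (fun v => ∑ s, |μ s v - μ₀ v|), Finset.sum_comm]
      exact hday T
    rw [Finset.sum_add_distrib, ← Finset.sum_div]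
    have h3 : (∑ v : ↥T, μ₀ v) / d ≤ 1 / d := div_le_div_of_nonneg_right h1 hd0.le
    have h4 : ((t + 1 : ℕ) : ℝ) * (1 / d + 1 / d) = 1 / 2 := by
      rw [hd]; push_cast; field_simp; ring
    rw [← h4]
    exact mul_le_mul_of_nonneg_left (by linarith) (Nat.cast_nonneg _)
  · intro e
    simp only [hg]
    rw [h.spread Lam ℕ _ _ ((hmono e).mono (hgamP _)), Frame.gam, NN_term h hm (F.mono _)]
    exact hU
  · intro v γ hl hp hc
    rw [hpath γ v hl.le hp]
    obtain ⟨e, -, he⟩ := Finset.mem_image.1 v.2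
    rw [← he, h.spread Lam ℕ _ _ ((hmono e).mono (hP _ (by simpa using hl.le)).1)]
    obtain ⟨x, o, h1, h2, h3⟩ := F.exists_family' N m (γ.map lab) t (by simpa using hl)
      (by rw [List.isChain_map]; exact hc)
    rw [h1]
    exact hA x o h2 h3

theorem exists_ratio (h : Spr p K θ NN) (hp : 0 < p) (hK : 0 ≤ K) (hθ : 0 < θ) :
    ∃ c : ℝ, 0 < c ∧ ∀ t : ℕ, (c * ((t + 1 : ℕ) : ℝ)) ^ p ≤ 4 * (K ^ p * ((t + 1 : ℕ) : ℝ)) := by
  have key : ∀ (t : ℕ) (c U : ℝ), 0 ≤ c → 0 < U →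
      (c * ((t + 1 : ℕ) : ℝ) * U) ^ p ≤ 4 * (K ^ p * ((t + 1 : ℕ) : ℝ) * U ^ p) →
      (c * ((t + 1 : ℕ) : ℝ)) ^ p ≤ 4 * (K ^ p * ((t + 1 : ℕ) : ℝ)) := by
    intro t c U hc hU H
    rw [Real.mul_rpow (by positivity) hU.le, ← mul_assoc] at H
    exact le_of_mul_le_mul_right H (Real.rpow_pos_of_pos hU p)
  by_cases hb : BddAbove (Set.range (bb NN))
  · obtain ⟨B, hB⟩ := hb
    have hB' : ∀ N, bb NN N ≤ B := fun N => hB ⟨N, rfl⟩
    have hB0 : 0 < B + 1 := by linarith [(bb_nonneg (NN := NN) 0).trans (hB' 0)]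
    refine ⟨θ / (2 * (B + 1)), by positivity, fun t => key t _ (B + 1) (by positivity) hB0 ?_⟩
    obtain ⟨m, hm, hmU⟩ := exists_pat_lt h (2 * (2 * t + 1) + 1)
      (show bb NN (2 * (2 * t + 1) + 1) < B + 1 by linarith [hB' (2 * (2 * t + 1) + 1)])
    refine main_ineq h hp hK t _ hm (by positivity) hmU.le fun x o ho hord => ?_
    refine le_trans (le_of_eq ?_) (james_family h hθ.le hm x o (2 * t + 1) ho hord le_rfl)
    rw [Fintype.card_fin]
    field_simp
  · refine ⟨1 / 4, by norm_num, fun t => ?_⟩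
    rw [not_bddAbove_iff] at hb
    obtain ⟨_, ⟨N, rfl⟩, hN⟩ := hb (4 * ((2 * t + 1 : ℕ) : ℝ))
    have hN0 : 0 < bb NN N := lt_of_le_of_lt (by positivity) hN
    refine key t _ (2 * bb NN N) (by norm_num) (by positivity) ?_
    obtain ⟨m, hm, hmU⟩ := exists_pat_lt h N (show bb NN N < 2 * bb NN N by linarith)
    refine main_ineq h hp hK t _ hm (by positivity) hmU.le fun x o ho hord => ?_
    refine le_trans ?_ (pattern_family h hm x o (2 * t + 1) ho hord)
    rw [Fintype.card_fin]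
    have : (0 : ℝ) ≤ ((t + 1 : ℕ) : ℝ) := Nat.cast_nonneg _
    nlinarith

theorem final (X : Type*) [NormedAddCommGroup X] [NormedSpace ℝ X] (p K : ℝ) (hp : 1 < p)
    (hK : 0 < K) (hX : HasMarkovType X p K) : HasEquivUniformlyConvexNorm X := by
  by_contra hcon
  obtain ⟨θ, hθ, NN, h⟩ := exists_spr hp.le hX hcon
  obtain ⟨c, hc, H⟩ := exists_ratio h (by linarith) hK.le hθ
  have hlim : Filter.Tendsto (fun t : ℕ => ((t + 1 : ℕ) : ℝ) ^ (p - 1)) Filter.atTop
      Filter.atTop :=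
    (tendsto_rpow_atTop (by linarith)).comp
      (tendsto_natCast_atTop_atTop.comp (Filter.tendsto_add_atTop_nat 1))
  obtain ⟨t, ht⟩ := (hlim.eventually_gt_atTop (4 * K ^ p / c ^ p)).exists
  have h1 := H t
  have ht0 : (0 : ℝ) < ((t + 1 : ℕ) : ℝ) := by positivity
  have hcp : 0 < c ^ p := Real.rpow_pos_of_pos hc p
  rw [Real.mul_rpow hc.le ht0.le] at h1
  rw [div_lt_iff₀ hcp, Real.rpow_sub_one ht0.ne', div_mul_eq_mul_div, lt_div_iff₀ ht0] at ht
  linarith

end Crest.Agent.R140
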