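import Crest.Agent.R140.Spread

/-!
Alternating block patterns and coherent families of them.
-/

set_option autoImplicit false

namespace Crest.Agent.R140

/-- sign -/
noncomputable def sg (i : ℤ) : ℝ := (-1 : ℝ) ^ i

theorem sg_add (i j : ℤ) : sg (i + j) = sg i * sg j := zpow_add₀ (by norm_num) i j

theorem sg_abs (i : ℤ) : |sg i| = 1 := by simp [sg, abs_zpow]

theorem sg_sub_one (i : ℤ) : sg (i - 1) = - sg i := by
  rw [sub_eq_add_neg, sg_add]
  simp [sg]

theorem sg_add_two_mul (i e : ℤ) : sg (i + 2 * e) = sg i := by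
  rw [sg_add]
  simp [sg, zpow_mul]

/-- the ordered set carrying blocks -/
abbrev Lam : Type := ℝ ×ₗ ℕ

/-- a block placed at `x` -/
noncomputable def blk (x : ℝ) (m : ℕ →₀ ℝ) : Lam →₀ ℝ := m.mapDomain fun r => toLex (x, r)

/-- action on the first coordinate -/
def lift (f : ℝ → ℝ) (y : Lam) : Lam := toLex (f (ofLex y).1, (ofLex y).2)

theorem map_blk (f : ℝ → ℝ) (x : ℝ) (m : ℕ →₀ ℝ) :
    (blk x m).mapDomain (lift f) = blk (f x) m := by
  unfold blk
  rw [← Finsupp.mapDomain_comp]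
  rfl

theorem lift_strictMono {f : ℝ → ℝ} (hf : StrictMono f) : StrictMono (lift f) := by
  intro a b hab
  unfold lift
  rw [Prod.Lex.toLex_lt_toLex]
  rcases Prod.Lex.lt_iff.1 hab with h | h
  · exact Or.inl (hf h)
  · exact Or.inr ⟨by simp only [h.1], h.2⟩

theorem mem_blk {x : ℝ} {m : ℕ →₀ ℝ} {y : Lam} (h : y ∈ (blk x m).support) :
    ∃ r ∈ m.support, y = toLex (x, r) := by
  classical
  obtain ⟨r, hr, e⟩ := Finset.mem_image.1 (Finsupp.mapDomain_support h)
  exact ⟨r, hr, e.symm⟩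

/-- alternating sum -/
noncomputable def alt {Λ : Type} (N : ℕ) (M : ℕ → Λ →₀ ℝ) : Λ →₀ ℝ :=
  ∑ j ∈ Finset.range N, sg j • M j

/-- shifted alternating sum of blocks -/
noncomputable def term (N : ℕ) (m : ℕ → ℕ →₀ ℝ) (x : ℤ → ℝ) (o : ℤ) : Lam →₀ ℝ :=
  ∑ j ∈ Finset.range N, sg (j + o) • blk (x (j + o)) (m j)

theorem map_term (N : ℕ) (m : ℕ → ℕ →₀ ℝ) (x : ℤ → ℝ) (o : ℤ) (f : ℝ → ℝ) :
    (term N m x o).mapDomain (lift f) = term N m (fun i => f (x i)) o := by
  unfold term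
  rw [Finsupp.mapDomain_finsetSum]
  refine Finset.sum_congr rfl fun j _ => ?_
  rw [Finsupp.mapDomain_smul, map_blk]

theorem term_shift (N : ℕ) (m : ℕ → ℕ →₀ ℝ) (x : ℤ → ℝ) (o e : ℤ) :
    term N m (fun i => x (i + 2 * e)) (o - 2 * e) = term N m x o := by
  unfold term
  refine Finset.sum_congr rfl fun j _ => ?_
  rw [← sg_add_two_mul _ e]
  simp only [show (j : ℤ) + (o - 2 * e) + 2 * e = j + o by ring]

variable (NN : ∀ (Λ : Type) [LinearOrder Λ], Seminorm ℝ (Λ →₀ ℝ))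

/-- block patterns -/
def IsPat {Λ : Type} [LinearOrder Λ] (N : ℕ) (M : ℕ → Λ →₀ ℝ) : Prop :=
  (∀ j < N, NN Λ (M j) ≤ 1 ∧ tau Set.univ (M j) = 1) ∧
    ∀ i j, i < j → j < N → ∀ x ∈ (M i).support, ∀ y ∈ (M j).support, x < y

/-- least norm of an alternating block pattern -/
noncomputable def bb (N : ℕ) : ℝ :=
  sInf {r | ∃ M : ℕ → ℕ →₀ ℝ, IsPat NN N M ∧ r = NN ℕ (alt N M)}

variable {NN} {p K θ : ℝ}

theorem tau_single {Λ : Type*} (A : Set Λ) (x : Λ) (hx : x ∈ A) :
    tau A (Finsupp.single x 1) = 1 := by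
  simp [tau, hx]

theorem bb_bdd (N : ℕ) :
    BddBelow {r | ∃ M : ℕ → ℕ →₀ ℝ, IsPat NN N M ∧ r = NN ℕ (alt N M)} :=
  ⟨0, fun _ ⟨_, _, h⟩ => h ▸ apply_nonneg _ _⟩

theorem bb_ne (h : Spr p K θ NN) (N : ℕ) :
    {r | ∃ M : ℕ → ℕ →₀ ℝ, IsPat NN N M ∧ r = NN ℕ (alt N M)}.Nonempty := by
  refine ⟨_, fun j => Finsupp.single j 1,
    ⟨fun j _ => ⟨h.single ℕ j, tau_single _ _ trivial⟩, ?_⟩, rfl⟩
  intro i j hij _ x hx y hy
  rw [Finsupp.support_single _ one_ne_zero, Finset.mem_singleton] at hx hy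
  omega

theorem bb_nonneg (N : ℕ) : 0 ≤ bb NN N :=
  Real.sInf_nonneg fun _ ⟨_, _, h⟩ => h ▸ apply_nonneg _ _

theorem exists_pat_lt (h : Spr p K θ NN) (N : ℕ) {U : ℝ} (hU : bb NN N < U) :
    ∃ M : ℕ → ℕ →₀ ℝ, IsPat NN N M ∧ NN ℕ (alt N M) < U := by
  obtain ⟨r, ⟨M, hM, rfl⟩, hr⟩ := exists_lt_of_csInf_lt (bb_ne h N) hU
  exact ⟨M, hM, hr⟩

theorem support_alt {Λ : Type} [DecidableEq Λ] (N : ℕ) (M : ℕ → Λ →₀ ℝ) :
    (alt N M).support ⊆ (Finset.range N).biUnion fun j => (M j).support := by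
  refine Finsupp.support_finsetSum.trans fun x hx => ?_
  rw [Finset.mem_biUnion] at hx ⊢
  obtain ⟨j, hj, hx⟩ := hx
  exact ⟨j, hj, Finsupp.support_smul hx⟩

theorem bb_le (h : Spr p K θ NN) {Λ : Type} [LinearOrder Λ] (N : ℕ) (M : ℕ → Λ →₀ ℝ)
    (hM : IsPat NN N M) : bb NN N ≤ NN Λ (alt N M) := by
  classical
  set s := (Finset.range N).biUnion fun j => (M j).support with hs
  have hsub : ∀ j < N, (M j).support ⊆ s := fun j hj =>
    Finset.subset_biUnion_of_mem (fun j => (M j).support) (Finset.mem_range.2 hj)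
  refine csInf_le (bb_bdd N) ⟨fun j => (M j).mapDomain (rk s), ⟨fun j hj => ⟨?_, ?_⟩, ?_⟩, ?_⟩
  · rw [h.spread Λ ℕ _ _ ((rk_strictMonoOn s).mono (hsub j hj))]
    exact (hM.1 j hj).1
  · rw [tau_mapDomain, Set.preimage_univ]
    exact (hM.1 j hj).2
  · intro i j hij hj x hx y hy
    obtain ⟨x', hx', rfl⟩ := Finset.mem_image.1 (Finsupp.mapDomain_support hx)
    obtain ⟨y', hy', rfl⟩ := Finset.mem_image.1 (Finsupp.mapDomain_support hy)
    exact rk_strictMonoOn s (hsub i (hij.trans hj) hx') (hsub j hj hy')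
      (hM.2 i j hij hj x' hx' y' hy')
  · rw [← h.spread Λ ℕ (rk s) _ ((rk_strictMonoOn s).mono (support_alt N M))]
    congr 1
    unfold alt
    rw [Finsupp.mapDomain_finsetSum]
    simp only [Finsupp.mapDomain_smul]

theorem NN_blk (h : Spr p K θ NN) (x : ℝ) (m : ℕ →₀ ℝ) : NN Lam (blk x m) = NN ℕ m :=
  h.spread ℕ Lam _ m fun _ _ _ _ hab => Prod.Lex.toLex_lt_toLex.2 (Or.inr ⟨rfl, hab⟩)

theorem NN_term (h : Spr p K θ NN) {N : ℕ} {m : ℕ → ℕ →₀ ℝ} (hm : IsPat NN N m) {x : ℤ → ℝ}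
    (hx : StrictMono x) (o : ℤ) : NN Lam (term N m x o) = NN ℕ (alt N m) := by
  classical
  have hsupp : ∀ y ∈ (term N m x o).support, ∃ j < N, ∃ r ∈ (m j).support,
      y = toLex (x (j + o), r) := by
    intro y hy
    obtain ⟨j, hj, hy⟩ := Finset.mem_biUnion.1 (Finsupp.support_finsetSum hy)
    exact ⟨j, Finset.mem_range.1 hj, mem_blk (Finsupp.support_smul hy)⟩
  rw [← h.spread Lam ℕ (fun y => (ofLex y).2)]
  · have : (term N m x o).mapDomain (fun y => (ofLex y).2) = sg o • alt N m := by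
      unfold term alt
      rw [Finsupp.mapDomain_finsetSum, Finset.smul_sum]
      refine Finset.sum_congr rfl fun j _ => ?_
      rw [Finsupp.mapDomain_smul, blk, ← Finsupp.mapDomain_comp, smul_smul, sg_add, mul_comm]
      congr 1
      exact Finsupp.mapDomain_id
    rw [this, map_smul_eq_mul, Real.norm_eq_abs, sg_abs, one_mul]
  · intro a ha b hb hab
    obtain ⟨i, hi, r, hr, rfl⟩ := hsupp a ha
    obtain ⟨j, hj, r', hr', rfl⟩ := hsupp b hb
    rcases Prod.Lex.toLex_lt_toLex.1 hab with h1 | h1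
    · have : i < j := by
        have := hx.lt_iff_lt.1 h1
        omega
      exact hm.2 i j this hj r hr r' hr'
    · exact h1.2

theorem ord_of_succ {ι : Type} {x : ι → ℤ → ℝ} (hord : ∀ l l' j, x l j < x l' (j + 1))
    (l l' : ι) {i j : ℤ} (hij : i < j) : x l i < x l' j :=
  (hord l l' i).trans_le ((strictMono_int_of_lt_succ (hord l' l')).monotone (by omega))

theorem NN_sum_le {Λ ι : Type} [LinearOrder Λ] (s : Finset ι) (f : ι → Λ →₀ ℝ) :
    NN Λ (∑ i ∈ s, f i) ≤ ∑ i ∈ s, NN Λ (f i) :=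
  Finset.le_sum_of_subadditive (NN Λ) (map_zero _).le (map_add_le_add _) _ _

theorem james_family (h : Spr p K θ NN) (hθ : 0 ≤ θ) {N : ℕ} {m : ℕ → ℕ →₀ ℝ}
    (hm : IsPat NN N m) {ι : Type} [Fintype ι] (x : ι → ℤ → ℝ) (o : ι → ℤ) (D : ℕ)
    (ho : ∀ l, |o l| ≤ D) (hord : ∀ l l' j, x l j < x l' (j + 1)) (hN : 2 * D + 1 ≤ N) :
    θ * Fintype.card ι / 2 ≤ NN Lam (∑ l, term N m (x l) (o l)) := by
  set A : ℤ → Set Lam := fun i => {y | ∃ l, x l i ≤ (ofLex y).1} with hA
  have hup : ∀ i, IsUpperSet (A i) := by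
    rintro i a b hab ⟨l, hl⟩
    refine ⟨l, hl.trans ?_⟩
    rcases Prod.Lex.le_iff.1 hab with h1 | h1
    · exact h1.le
    · exact h1.1.le
  have hblk : ∀ i l (i' : ℤ) (j : ℕ), j < N →
      tau (A i) (blk (x l i') (m j)) = if i ≤ i' then 1 else 0 := by
    intro i l i' j hj
    unfold blk
    rw [tau_mapDomain]
    split_ifs with hi
    · rw [← (hm.1 j hj).2]
      congr 2
      refine Set.eq_univ_of_forall fun r => ⟨l, ?_⟩
      exact (strictMono_int_of_lt_succ (hord l l)).monotone hi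
    · have : (fun r => toLex (x l i', r)) ⁻¹' A i = ∅ := by
        refine Set.eq_empty_of_forall_notMem fun r ⟨l', hl'⟩ => ?_
        exact absurd (ord_of_succ hord l l' (not_le.1 hi)) (not_lt.2 hl')
      rw [this]
      simp [tau_apply]
  have hdiff : ∀ l, tau (A D) (term N m (x l) (o l)) - tau (A (D + 1)) (term N m (x l) (o l))
      = sg D := by
    intro l
    unfold term
    rw [map_sum, map_sum, ← Finset.sum_sub_distrib]
    have hl := abs_le.1 (ho l)
    rw [Finset.sum_eq_single (D - o l).toNat]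
    · have e : (((D : ℤ) - o l).toNat : ℤ) + o l = D := by omega
      rw [map_smul, map_smul, hblk _ _ _ _ (by omega), hblk _ _ _ _ (by omega), e]
      simp
    · intro j hj hne
      rw [map_smul, map_smul, hblk _ _ _ _ (Finset.mem_range.1 hj),
        hblk _ _ _ _ (Finset.mem_range.1 hj)]
      have : (D : ℤ) ≤ j + o l ↔ (D : ℤ) + 1 ≤ j + o l := by omega
      simp only [this, sub_self]
    · intro hn
      exact absurd (Finset.mem_range.2 (by omega)) hn
  set S := ∑ l, term N m (x l) (o l) with hS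
  have h1 := h.james Lam (A D) (hup _) S
  have h2 := h.james Lam (A (D + 1)) (hup _) S
  have h3 : tau (A D) S - tau (A (D + 1)) S = Fintype.card ι * sg D := by
    rw [hS, map_sum, map_sum, ← Finset.sum_sub_distrib]
    simp only [hdiff, Finset.sum_const, Finset.card_univ, nsmul_eq_mul]
  have h4 : (Fintype.card ι : ℝ) ≤ |tau (A D) S| + |tau (A (D + 1)) S| := by
    have := abs_sub (tau (A D) S) (tau (A (D + 1)) S)
    rwa [h3, abs_mul, sg_abs, mul_one, Nat.abs_cast] at this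
  nlinarith [mul_le_mul_of_nonneg_left h4 hθ]

theorem pattern_family (h : Spr p K θ NN) {N : ℕ} {m : ℕ → ℕ →₀ ℝ}
    (hm : IsPat NN N m) {ι : Type} [Fintype ι] [Nonempty ι] (x : ι → ℤ → ℝ) (o : ι → ℤ) (D : ℕ)
    (ho : ∀ l, |o l| ≤ D) (hord : ∀ l l' j, x l j < x l' (j + 1)) :
    Fintype.card ι * (bb NN N - 2 * D) ≤ NN Lam (∑ l, term N m (x l) (o l)) := by
  classical
  obtain ⟨t, ht⟩ : ∃ t : ℝ, t = (Fintype.card ι : ℝ) := ⟨_, rfl⟩
  rw [← ht]
  have ht0 : 0 < t := by rw [ht]; exact_mod_cast Fintype.card_pos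
  set mt : ℤ → ℕ →₀ ℝ := fun j => if 0 ≤ j ∧ j < N then m j.toNat else Finsupp.single 0 1 with hmt
  have hmt1 : ∀ j, NN ℕ (mt j) ≤ 1 ∧ tau Set.univ (mt j) = 1 := by
    intro j
    simp only [hmt]
    split_ifs with hj
    · exact hm.1 _ (by omega)
    · exact ⟨h.single ℕ 0, tau_single _ _ trivial⟩
  set u : ι → ℤ → Lam →₀ ℝ := fun l i => sg i • blk (x l i) (mt (i - o l)) with hu
  have hu1 : ∀ l i, NN Lam (u l i) ≤ 1 := by
    intro l i
    simp only [hu]
    rw [map_smul_eq_mul, Real.norm_eq_abs, sg_abs, one_mul, NN_blk h]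
    exact (hmt1 _).1
  have hterm : ∀ l, term N m (x l) (o l) = ∑ i ∈ Finset.Ico (o l) (N + o l), u l i := by
    intro l
    unfold term
    refine Finset.sum_nbij' (fun j => (j : ℤ) + o l) (fun i => (i - o l).toNat) ?_ ?_ ?_ ?_ ?_
    · intro j hj
      simp only [Finset.mem_range, Finset.mem_Ico] at hj ⊢
      omega
    · intro i hi
      simp only [Finset.mem_range, Finset.mem_Ico] at hi ⊢
      omega
    · intro j _
      simp
    · intro i hi
      simp only [Finset.mem_Ico] at hi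
      omega
    · intro j hj
      have hj' := Finset.mem_range.1 hj
      simp only [hu, hmt, add_sub_cancel_right]
      rw [if_pos ⟨by omega, by omega⟩, Int.toNat_natCast]
  have hterm' : ∀ l, ∑ i ∈ Finset.range N, u l i = ∑ i ∈ Finset.Ico (0 : ℤ) N, u l i := by
    intro l
    refine Finset.sum_nbij' (fun j => (j : ℤ)) (fun i => i.toNat) ?_ ?_ ?_ ?_ ?_
    · intro j hj
      simp only [Finset.mem_range, Finset.mem_Ico] at hj ⊢
      omega
    · intro i hi
      simp only [Finset.mem_range, Finset.mem_Ico] at hi ⊢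
      omega
    · intro j _
      simp
    · intro i hi
      simp only [Finset.mem_Ico] at hi
      omega
    · intro j _
      rfl
  have hcount : ∀ (l : ι) (s : Finset ℤ) (a b c d : ℤ), s ⊆ Finset.Ico a b ∪ Finset.Ico c d →
      (b - a).toNat + (d - c).toNat ≤ D → NN Lam (∑ i ∈ s, u l i) ≤ D := by
    intro l s a b c d hs hD
    refine (NN_sum_le s _).trans ((Finset.sum_le_card_nsmul s _ 1 fun i _ => hu1 l i).trans ?_)
    rw [nsmul_eq_mul, mul_one]
    have := (Finset.card_le_card hs).trans (Finset.card_union_le _ _)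
    rw [Int.card_Ico, Int.card_Ico] at this
    exact_mod_cast this.trans hD
  have hdiff : ∀ l, NN Lam (∑ i ∈ Finset.range N, u l i - term N m (x l) (o l)) ≤ 2 * D := by
    intro l
    have hl := abs_le.1 (ho l)
    rw [hterm, hterm', ← Finset.sum_sdiff_sub_sum_sdiff]
    refine (map_sub_le_add _ _ _).trans ?_
    have h1 := hcount l (Finset.Ico (0 : ℤ) N \ Finset.Ico (o l) (N + o l)) 0 (o l) (N + o l) N
      (fun i hi => by
        simp only [Finset.mem_sdiff, Finset.mem_Ico, Finset.mem_union] at hi ⊢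
        omega) (by omega)
    have h2 := hcount l (Finset.Ico (o l) (N + o l) \ Finset.Ico (0 : ℤ) N) (o l) 0 N (N + o l)
      (fun i hi => by
        simp only [Finset.mem_sdiff, Finset.mem_Ico, Finset.mem_union] at hi ⊢
        omega) (by omega)
    linarith
  set M : ℕ → Lam →₀ ℝ := fun i => t⁻¹ • ∑ l, blk (x l i) (mt (i - o l)) with hM
  have hMpat : IsPat NN N M := by
    refine ⟨fun j _ => ⟨?_, ?_⟩, ?_⟩
    · simp only [hM]
      rw [map_smul_eq_mul, Real.norm_of_nonneg (inv_nonneg.2 ht0.le), inv_mul_le_iff₀ ht0, mul_one]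
      refine (NN_sum_le _ _).trans ((Finset.sum_le_card_nsmul _ _ 1 fun l _ => ?_).trans ?_)
      · rw [NN_blk h]; exact (hmt1 _).1
      · simp [ht]
    · simp only [hM, map_smul, map_sum, blk, tau_mapDomain, Set.preimage_univ, (hmt1 _).2,
        Finset.sum_const, Finset.card_univ, nsmul_eq_mul, mul_one, smul_eq_mul, ← ht]
      exact inv_mul_cancel₀ ht0.ne'
    · intro i j hij _ a ha b hb
      obtain ⟨l, -, ha⟩ := Finset.mem_biUnion.1 (Finsupp.support_finsetSum (Finsupp.support_smul ha))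
      obtain ⟨l', -, hb⟩ := Finset.mem_biUnion.1 (Finsupp.support_finsetSum (Finsupp.support_smul hb))
      obtain ⟨r, -, rfl⟩ := mem_blk ha
      obtain ⟨r', -, rfl⟩ := mem_blk hb
      exact Prod.Lex.toLex_lt_toLex.2 (Or.inl (ord_of_succ hord l l' (by exact_mod_cast hij)))
  have halt : t • alt N M = ∑ l, ∑ i ∈ Finset.range N, u l i := by
    unfold alt
    rw [Finset.sum_comm, Finset.smul_sum]
    refine Finset.sum_congr rfl fun i _ => ?_
    simp only [hM, hu]
    rw [smul_comm, smul_smul t, mul_inv_cancel₀ ht0.ne', one_smul, Finset.smul_sum]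
  have h1 : t * bb NN N ≤ NN Lam (t • alt N M) := by
    rw [map_smul_eq_mul, Real.norm_of_nonneg ht0.le]
    exact mul_le_mul_of_nonneg_left (bb_le h N M hMpat) ht0.le
  have h2 : t • alt N M = (∑ l, term N m (x l) (o l)) +
      ∑ l, (∑ i ∈ Finset.range N, u l i - term N m (x l) (o l)) := by
    rw [halt, Finset.sum_sub_distrib]
    abel
  have h3 : NN Lam (∑ l, (∑ i ∈ Finset.range N, u l i - term N m (x l) (o l))) ≤ t * (2 * D) := by
    refine (NN_sum_le _ _).trans ((Finset.sum_le_card_nsmul _ _ _ fun l _ => hdiff l).trans ?_)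
    simp [ht]
  rw [h2] at h1
  have h4 := h1.trans (map_add_le_add _ _ _)
  linarith

end Crest.Agent.R140
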