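import Mathlib
import Crest.Prelude.Def_MarkovType

/-!
Renorming step: if the martingale trees of the unit ball with many big jumps are rare, the space
carries an equivalent uniformly convex norm.
-/

set_option autoImplicit false

namespace Crest.Agent.R140

open Crest.AnalysisR
open scoped Pointwise

variable {X : Type*} [NormedAddCommGroup X] [NormedSpace ℝ X]

/-- `Ach ε n x s`: a finite martingale in the unit ball, started at `x`, makes at least `n`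
counted jumps of size `ε` with probability `s`. -/
inductive Ach (ε : ℝ) : ℕ → X → ℝ → Prop
  | one (x : X) : ‖x‖ ≤ 1 → Ach ε 0 x 1
  | zero (n : ℕ) (x : X) : ‖x‖ ≤ 1 → Ach ε n x 0
  | mix (n : ℕ) (y z : X) (s₁ s₂ a b : ℝ) : Ach ε n y s₁ → Ach ε n z s₂ → 0 ≤ a → 0 ≤ b →
      a + b = 1 → Ach ε n (a • y + b • z) (a * s₁ + b * s₂)
  | jump (n : ℕ) (y z : X) (s₁ s₂ : ℝ) : Ach ε n y s₁ → Ach ε n z s₂ → 2 * ε ≤ ‖y - z‖ →
      Ach ε (n + 1) ((1 / 2 : ℝ) • (y + z)) ((s₁ + s₂) / 2)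

theorem Ach.bounds {ε : ℝ} {n : ℕ} {x : X} {s : ℝ} (h : Ach ε n x s) :
    ‖x‖ ≤ 1 ∧ 0 ≤ s ∧ s ≤ 1 := by
  induction h with
  | one x hx => exact ⟨hx, zero_le_one, le_rfl⟩
  | zero n x hx => exact ⟨hx, le_rfl, zero_le_one⟩
  | mix n y z s₁ s₂ a b _ _ ha hb hab ih₁ ih₂ =>
    obtain ⟨hy, h1, h1'⟩ := ih₁
    obtain ⟨hz, h2, h2'⟩ := ih₂
    refine ⟨?_, by positivity, by nlinarith⟩
    calc ‖a • y + b • z‖ ≤ ‖a • y‖ + ‖b • z‖ := norm_add_le _ _
      _ = a * ‖y‖ + b * ‖z‖ := by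
        rw [norm_smul, norm_smul, Real.norm_of_nonneg ha, Real.norm_of_nonneg hb]
      _ ≤ 1 := by nlinarith
  | jump n y z s₁ s₂ _ _ _ ih₁ ih₂ =>
    obtain ⟨hy, h1, h1'⟩ := ih₁
    obtain ⟨hz, h2, h2'⟩ := ih₂
    refine ⟨?_, by positivity, by linarith⟩
    rw [norm_smul]
    have := norm_add_le y z
    have h12 : ‖(1 / 2 : ℝ)‖ = 1 / 2 := by norm_num
    rw [h12]
    linarith

/-- value function -/
noncomputable def val (ε : ℝ) (n : ℕ) (x : X) : ℝ := sSup {s | Ach ε n x s}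

theorem ach_bdd (ε : ℝ) (n : ℕ) (x : X) : BddAbove {s | Ach ε n x s} :=
  ⟨1, fun _ hs => hs.bounds.2.2⟩

theorem ach_ne (ε : ℝ) (n : ℕ) {x : X} (hx : ‖x‖ ≤ 1) : {s | Ach ε n x s}.Nonempty :=
  ⟨0, Ach.zero n x hx⟩

theorem le_val {ε : ℝ} {n : ℕ} {x : X} {s : ℝ} (h : Ach ε n x s) : s ≤ val ε n x :=
  le_csSup (ach_bdd ε n x) h

theorem val_nonneg (ε : ℝ) (n : ℕ) {x : X} (hx : ‖x‖ ≤ 1) : 0 ≤ val ε n x :=
  le_val (Ach.zero n x hx)

theorem val_le_one (ε : ℝ) (n : ℕ) {x : X} (hx : ‖x‖ ≤ 1) : val ε n x ≤ 1 :=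
  csSup_le (ach_ne ε n hx) fun _ hs => hs.bounds.2.2

theorem val_zero (ε : ℝ) {x : X} (hx : ‖x‖ ≤ 1) : val ε 0 x = 1 :=
  le_antisymm (val_le_one ε 0 hx) (le_val (Ach.one x hx))

theorem comb_sSup_le {S T : Set ℝ} (hS : S.Nonempty) (hT : T.Nonempty)
    {a b M : ℝ} (ha : 0 ≤ a) (hb : 0 ≤ b)
    (h : ∀ s ∈ S, ∀ t ∈ T, a * s + b * t ≤ M) : a * sSup S + b * sSup T ≤ M := by
  refine le_of_forall_pos_le_add fun η hη => ?_
  have hpos : 0 < η / (a + b + 1) := by positivity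
  obtain ⟨s, hs, hs'⟩ := exists_lt_of_lt_csSup hS (show sSup S - η / (a + b + 1) < sSup S by linarith)
  obtain ⟨t, ht, ht'⟩ := exists_lt_of_lt_csSup hT (show sSup T - η / (a + b + 1) < sSup T by linarith)
  have h1 := h s hs t ht
  have h2 : (a + b) * (η / (a + b + 1)) ≤ η := by
    rw [← mul_div_assoc, div_le_iff₀ (by positivity)]
    nlinarith
  nlinarith [mul_le_mul_of_nonneg_left hs'.le ha, mul_le_mul_of_nonneg_left ht'.le hb]

theorem val_mix (ε : ℝ) (n : ℕ) {y z : X} (hy : ‖y‖ ≤ 1) (hz : ‖z‖ ≤ 1) {a b : ℝ} (ha : 0 ≤ a)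
    (hb : 0 ≤ b) (hab : a + b = 1) :
    a * val ε n y + b * val ε n z ≤ val ε n (a • y + b • z) :=
  comb_sSup_le (ach_ne ε n hy) (ach_ne ε n hz) ha hb
    fun s hs t ht => le_val (Ach.mix n y z s t a b hs ht ha hb hab)

theorem val_jump (ε : ℝ) (n : ℕ) {y z : X} (hy : ‖y‖ ≤ 1) (hz : ‖z‖ ≤ 1)
    (hyz : 2 * ε ≤ ‖y - z‖) :
    (1 / 2) * val ε n y + (1 / 2) * val ε n z ≤ val ε (n + 1) ((1 / 2 : ℝ) • (y + z)) :=
  comb_sSup_le (ach_ne ε n hy) (ach_ne ε n hz) (by norm_num)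
    (by norm_num) fun s hs t ht => by
      have := le_val (Ach.jump n y z s t hs ht hyz)
      linarith

/-- A concave `[0,1]`-valued function on the ball. -/
def GoodFun (F : X → ℝ) : Prop :=
  (∀ x, ‖x‖ ≤ 1 → 0 ≤ F x ∧ F x ≤ 1) ∧
  ∀ y z : X, ‖y‖ ≤ 1 → ‖z‖ ≤ 1 → ∀ a b : ℝ, 0 ≤ a → 0 ≤ b → a + b = 1 →
    a * F y + b * F z ≤ F (a • y + b • z)

/-- gain on far pairs -/
def Gain (F : X → ℝ) (ε δ : ℝ) : Prop :=
  ∀ y z : X, ‖y‖ ≤ 1 → ‖z‖ ≤ 1 → ε ≤ ‖y - z‖ →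
    (1 / 2) * F y + (1 / 2) * F z + δ ≤ F ((1 / 2 : ℝ) • (y + z))

theorem exists_goodFun {ε : ℝ} {n : ℕ} (h : ∀ (x : X) (s : ℝ), Ach ε n x s → s ≤ 1 / 2) :
    ∃ F : X → ℝ, GoodFun F ∧ ∃ δ, 0 < δ ∧ Gain F (2 * ε) δ := by
  have hn : 0 < n := by
    rcases Nat.eq_zero_or_pos n with rfl | hn
    · have := h 0 1 (Ach.one 0 (by simp))
      norm_num at this
    · exact hn
  have hn' : (0 : ℝ) < n := by exact_mod_cast hn
  refine ⟨fun x => (∑ k ∈ Finset.range n, val ε (k + 1) x) / n, ⟨?_, ?_⟩, 1 / (2 * n),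
    by positivity, ?_⟩
  · intro x hx
    refine ⟨div_nonneg (Finset.sum_nonneg fun k _ => val_nonneg ε _ hx) hn'.le, ?_⟩
    rw [div_le_one hn']
    calc ∑ k ∈ Finset.range n, val ε (k + 1) x ≤ ∑ k ∈ Finset.range n, (1 : ℝ) :=
          Finset.sum_le_sum fun k _ => val_le_one ε _ hx
      _ = n := by simp
  · intro y z hy hz a b ha hb hab
    have : a * (∑ k ∈ Finset.range n, val ε (k + 1) y) + b * (∑ k ∈ Finset.range n, val ε (k + 1) z)
        ≤ ∑ k ∈ Finset.range n, val ε (k + 1) (a • y + b • z) := by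
      rw [Finset.mul_sum, Finset.mul_sum, ← Finset.sum_add_distrib]
      exact Finset.sum_le_sum fun k _ => val_mix ε _ hy hz ha hb hab
    simp only
    rw [← mul_div_assoc, ← mul_div_assoc, ← add_div]
    exact div_le_div_of_nonneg_right this hn'.le
  · intro y z hy hz hyz
    have h1 : (1 / 2) * (∑ k ∈ Finset.range n, val ε k y) + (1 / 2) * (∑ k ∈ Finset.range n, val ε k z)
        ≤ ∑ k ∈ Finset.range n, val ε (k + 1) ((1 / 2 : ℝ) • (y + z)) := by
      rw [Finset.mul_sum, Finset.mul_sum, ← Finset.sum_add_distrib]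
      exact Finset.sum_le_sum fun k _ => val_jump ε _ hy hz hyz
    have key : ∀ x : X, ‖x‖ ≤ 1 → (∑ k ∈ Finset.range n, val ε (k + 1) x) + 1 / 2 ≤
        ∑ k ∈ Finset.range n, val ε k x := by
      intro x hx
      have e1 := Finset.sum_range_succ' (fun k => val ε k x) n
      have e2 := Finset.sum_range_succ (fun k => val ε k x) n
      have e3 : val ε n x ≤ 1 / 2 := csSup_le (ach_ne ε n hx) fun s hs => h x s hs
      rw [val_zero ε hx] at e1
      linarith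
    have ky := key y hy
    have kz := key z hz
    simp only
    rw [← mul_div_assoc, ← mul_div_assoc, ← add_div, show 1 / (2 * (n : ℝ)) = (1 / 2) / n by
      field_simp, ← add_div]
    exact div_le_div_of_nonneg_right (by linarith) hn'.le

theorem exists_goodFun_all (h : ∀ ε : ℝ, 0 < ε → ∃ F : X → ℝ, GoodFun F ∧ ∃ δ, 0 < δ ∧ Gain F ε δ) :
    ∃ F : X → ℝ, GoodFun F ∧ ∀ ε : ℝ, 0 < ε → ∃ δ, 0 < δ ∧ Gain F ε δ := by
  choose! F hF δ hδ hG using h
  set c : ℕ → ℝ := fun i => (1 / 2) / 2 ^ i with hc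
  have hcpos : ∀ i, 0 < c i := fun i => by positivity
  have hcsum : HasSum c 1 := hasSum_geometric_two' 1
  set e : ℕ → ℝ := fun i => 1 / ((i : ℝ) + 1) with he
  have hepos : ∀ i, 0 < e i := fun i => by positivity
  have hs : ∀ x : X, ‖x‖ ≤ 1 → Summable fun i => c i * F (e i) x := by
    intro x hx
    refine Summable.of_nonneg_of_le (fun i => ?_) (fun i => ?_) hcsum.summable
    · exact mul_nonneg (hcpos i).le ((hF _ (hepos i)).1 x hx).1
    · exact mul_le_of_le_one_right (hcpos i).le ((hF _ (hepos i)).1 x hx).2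
  have hball : ∀ y z : X, ‖y‖ ≤ 1 → ‖z‖ ≤ 1 → ∀ a b : ℝ, 0 ≤ a → 0 ≤ b → a + b = 1 →
      ‖a • y + b • z‖ ≤ 1 := fun y z hy hz a b ha hb hab =>
    (Ach.mix (ε := 0) 0 y z 0 0 a b (Ach.zero 0 y hy) (Ach.zero 0 z hz) ha hb hab).bounds.1
  refine ⟨fun x => ∑' i, c i * F (e i) x, ⟨?_, ?_⟩, ?_⟩
  · intro x hx
    refine ⟨tsum_nonneg fun i => mul_nonneg (hcpos i).le ((hF _ (hepos i)).1 x hx).1, ?_⟩
    rw [← hcsum.tsum_eq]
    exact (hs x hx).tsum_le_tsum
      (fun i => mul_le_of_le_one_right (hcpos i).le ((hF _ (hepos i)).1 x hx).2) hcsum.summable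
  · intro y z hy hz a b ha hb hab
    simp only
    rw [← tsum_mul_left, ← tsum_mul_left,
      ← Summable.tsum_add ((hs y hy).mul_left a) ((hs z hz).mul_left b)]
    refine Summable.tsum_le_tsum (fun i => ?_) (((hs y hy).mul_left a).add ((hs z hz).mul_left b))
      (hs _ (hball y z hy hz a b ha hb hab))
    have := (hF _ (hepos i)).2 y z hy hz a b ha hb hab
    nlinarith [hcpos i]
  · intro ε hε
    obtain ⟨i₀, hi₀⟩ := exists_nat_one_div_lt hε
    refine ⟨c i₀ * δ (e i₀), mul_pos (hcpos _) (hδ _ (hepos _)), ?_⟩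
    intro y z hy hz hyz
    have hm : (1 / 2 : ℝ) • (y + z) = (1 / 2 : ℝ) • y + (1 / 2 : ℝ) • z := smul_add _ _ _
    have hmb : ‖(1 / 2 : ℝ) • (y + z)‖ ≤ 1 := by
      rw [hm]; exact hball y z hy hz _ _ (by norm_num) (by norm_num) (by norm_num)
    have hS := ((hs _ hmb).sub (((hs y hy).mul_left (1 / 2)).add ((hs z hz).mul_left (1 / 2))))
    have hle := hS.le_tsum i₀ (fun j _ => by
      have := (hF _ (hepos j)).2 y z hy hz (1 / 2) (1 / 2) (by norm_num) (by norm_num) (by norm_num)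
      rw [← hm] at this
      nlinarith [hcpos j])
    rw [Summable.tsum_sub (hs _ hmb) (((hs y hy).mul_left (1 / 2)).add ((hs z hz).mul_left (1 / 2))),
      Summable.tsum_add ((hs y hy).mul_left (1 / 2)) ((hs z hz).mul_left (1 / 2)),
      tsum_mul_left, tsum_mul_left] at hle
    have hg := hG _ (hepos i₀) y z hy hz (le_trans hi₀.le hyz)
    simp only
    nlinarith [hcpos i₀]

theorem uc_of_goodFun {F : X → ℝ} (hF : GoodFun F)
    (hG : ∀ ε : ℝ, 0 < ε → ∃ δ, 0 < δ ∧ Gain F ε δ) : HasEquivUniformlyConvexNorm X := by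
  set G : X → ℝ := fun x => 4 * ‖x‖ - (F x + F (-x)) / 2 with hGdef
  have hball : ∀ y z : X, ‖y‖ ≤ 1 → ‖z‖ ≤ 1 → ∀ a b : ℝ, 0 ≤ a → 0 ≤ b → a + b = 1 →
      ‖a • y + b • z‖ ≤ 1 := fun y z hy hz a b ha hb hab =>
    (Ach.mix (ε := 0) 0 y z 0 0 a b (Ach.zero 0 y hy) (Ach.zero 0 z hz) ha hb hab).bounds.1
  have Gconv : ∀ y z : X, ‖y‖ ≤ 1 → ‖z‖ ≤ 1 → ∀ a b : ℝ, 0 ≤ a → 0 ≤ b → a + b = 1 →
      G (a • y + b • z) ≤ a * G y + b * G z := by
    intro y z hy hz a b ha hb hab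
    have h1 := hF.2 y z hy hz a b ha hb hab
    have h2 := hF.2 (-y) (-z) (by simpa using hy) (by simpa using hz) a b ha hb hab
    have h3 : ‖a • y + b • z‖ ≤ a * ‖y‖ + b * ‖z‖ := by
      calc ‖a • y + b • z‖ ≤ ‖a • y‖ + ‖b • z‖ := norm_add_le _ _
        _ = a * ‖y‖ + b * ‖z‖ := by
          rw [norm_smul, norm_smul, Real.norm_of_nonneg ha, Real.norm_of_nonneg hb]
    have h4 : a • (-y) + b • (-z) = -(a • y + b • z) := by
      simp only [smul_neg, neg_add]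
    rw [h4] at h2
    simp only [hGdef]
    nlinarith
  have Gbd : ∀ x : X, ‖x‖ ≤ 1 → 4 * ‖x‖ - 1 ≤ G x ∧ G x ≤ 4 * ‖x‖ := by
    intro x hx
    have h1 := hF.1 x hx
    have h2 := hF.1 (-x) (by simpa using hx)
    simp only [hGdef]
    constructor <;> linarith
  set C : Set X := {x | ‖x‖ ≤ 1 ∧ G x ≤ 1} with hC
  have Cconv : Convex ℝ C := by
    intro y hy z hz a b ha hb hab
    refine ⟨hball y z hy.1 hz.1 a b ha hb hab, ?_⟩
    have := Gconv y z hy.1 hz.1 a b ha hb hab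
    nlinarith [hy.2, hz.2]
  have Csymm : ∀ x ∈ C, -x ∈ C := by
    intro x hx
    refine ⟨by simpa using hx.1, ?_⟩
    have : G (-x) = G x := by simp only [hGdef, norm_neg, neg_neg]; ring
    rw [this]; exact hx.2
  have Cin : ∀ x : X, ‖x‖ ≤ 1 / 4 → x ∈ C := by
    intro x hx
    refine ⟨by linarith, ?_⟩
    have := (Gbd x (by linarith)).2
    linarith
  have Cout : ∀ x ∈ C, ‖x‖ ≤ 1 / 2 := by
    intro x hx
    have := (Gbd x hx.1).1
    linarith [hx.2]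
  have C0 : (0 : X) ∈ C := Cin 0 (by simp)
  have Cbal : Balanced ℝ C := (balanced_iff_neg_mem Cconv).2 Csymm
  have Cnhds : C ∈ nhds (0 : X) := by
    refine Filter.mem_of_superset (Metric.closedBall_mem_nhds 0 (show (0 : ℝ) < 1 / 4 by norm_num)) ?_
    intro x hx
    exact Cin x (by simpa using hx)
  have Cabs : Absorbent ℝ C := absorbent_nhds_zero Cnhds
  have hmem : ∀ x : X, gauge C x < 1 → x ∈ C := fun x hx =>
    setOfPred_gauge_lt_one_subset_self Cconv C0 Cabs hx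
  have hle : ∀ (x : X) (r : ℝ), 0 < r → r • x ∈ C → gauge C x ≤ 1 / r := by
    intro x r hr hx
    refine gauge_le_of_mem (by positivity) ?_
    refine ⟨r • x, hx, ?_⟩
    simp only [smul_smul]
    rw [one_div, inv_mul_cancel₀ hr.ne', one_smul]
  have hlow : ∀ x : X, 2 * ‖x‖ ≤ gauge C x := by
    intro x
    refine le_of_forall_gt_imp_ge_of_dense fun r hr => ?_
    have hr0 : 0 < r := lt_of_le_of_lt (gauge_nonneg x) hr
    have h1 : gauge C (r⁻¹ • x) < 1 := by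
      rw [gauge_smul_of_nonneg (inv_nonneg.2 hr0.le), smul_eq_mul, inv_mul_lt_iff₀ hr0, mul_one]
      exact hr
    have h2 := Cout _ (hmem _ h1)
    rw [norm_smul, Real.norm_of_nonneg (inv_nonneg.2 hr0.le), inv_mul_le_iff₀ hr0] at h2
    linarith
  have hup : ∀ x : X, gauge C x ≤ 4 * ‖x‖ := by
    intro x
    rcases eq_or_ne x 0 with rfl | hx
    · simp [gauge_zero]
    · have hx' : 0 < ‖x‖ := norm_pos_iff.2 hx
      have := hle x (1 / (4 * ‖x‖)) (by positivity) (Cin _ (by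
        rw [norm_smul, Real.norm_of_nonneg (by positivity)]
        field_simp
        exact le_rfl))
      simpa using this
  refine ⟨gaugeSeminorm Cbal Cconv Cabs, 2, 4, by norm_num, by norm_num,
    fun x => ⟨hlow x, hup x⟩, ?_⟩
  intro ε hε hε2
  obtain ⟨δ₀, hδ₀, hgain⟩ := hG (ε / 8) (by positivity)
  set η : ℝ := min (δ₀ / 5) 1 with hη
  have hη0 : 0 < η := lt_min (by positivity) one_pos
  have hη1 : η ≤ 1 := min_le_right _ _
  have hη2 : η ≤ δ₀ / 5 := min_le_left _ _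
  refine ⟨(η / 2) / (1 + η), by positivity, ?_⟩
  intro x y hx hy hxy
  simp only [gaugeSeminorm_toFun] at hx hy hxy ⊢
  set r : ℝ := 1 / (1 + η / 2) with hr
  have hr0 : 0 < r := by positivity
  have hr1 : r < 1 := by rw [hr, div_lt_one (by positivity)]; linarith
  have hr2 : 1 / 2 ≤ r := by rw [hr, le_div_iff₀ (by positivity)]; linarith
  have hxC : r • x ∈ C := hmem _ (by
    rw [gauge_smul_of_nonneg hr0.le, smul_eq_mul]; nlinarith)
  have hyC : r • y ∈ C := hmem _ (by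
    rw [gauge_smul_of_nonneg hr0.le, smul_eq_mul]; nlinarith)
  have hfar : ε / 8 ≤ ‖r • x - r • y‖ := by
    rw [← smul_sub, norm_smul, Real.norm_of_nonneg hr0.le]
    have := hup (x - y)
    nlinarith [norm_nonneg (x - y)]
  set m : X := (1 / 2 : ℝ) • (r • x + r • y) with hm
  have hmC : m ∈ C := by
    rw [hm, smul_add]
    exact Cconv hxC hyC (by norm_num) (by norm_num) (by norm_num)
  have hGm : G m ≤ 1 - δ₀ := by
    have g1 := hgain _ _ hxC.1 hyC.1 hfar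
    have g2 := hgain (-(r • x)) (-(r • y)) (by simpa using hxC.1) (by simpa using hyC.1)
      (by rw [neg_sub_neg, norm_sub_rev]; exact hfar)
    have e : (1 / 2 : ℝ) • (-(r • x) + -(r • y)) = -m := by
      rw [hm, ← neg_add, smul_neg]
    rw [e] at g2
    have h3 : ‖m‖ ≤ (1 / 2) * ‖r • x‖ + (1 / 2) * ‖r • y‖ := by
      rw [hm, norm_smul]
      have := norm_add_le (r • x) (r • y)
      have h12 : ‖(1 / 2 : ℝ)‖ = 1 / 2 := by norm_num
      rw [h12]; linarith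
    have hx2 := hxC.2
    have hy2 := hyC.2
    simp only [hGdef] at hx2 hy2 ⊢
    rw [← hm] at g1
    linarith
  have hm2 : ‖(2 : ℝ) • m‖ ≤ 1 := by
    rw [norm_smul]
    have := Cout m hmC
    have h12 : ‖(2 : ℝ)‖ = 2 := by norm_num
    rw [h12]; linarith
  have hbig : (1 + η) • m ∈ C := by
    have e : (1 + η) • m = (1 - η) • m + η • ((2 : ℝ) • m) := by
      clear_value m
      module
    rw [e]
    refine ⟨hball _ _ hmC.1 hm2 _ _ (by linarith) hη0.le (by ring), ?_⟩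
    have h1 := Gconv _ _ hmC.1 hm2 (1 - η) η (by linarith) hη0.le (by ring)
    have h2 := (Gbd _ hm2).2
    have h3 := (Gbd _ hmC.1).1
    have h4 := norm_nonneg m
    nlinarith
  have e2 : (1 + η) • m = ((1 + η) * r) • ((1 / 2 : ℝ) • (x + y)) := by
    rw [hm, ← smul_add, smul_smul, smul_smul, smul_smul]; congr 1; ring
  rw [e2] at hbig
  have := hle _ _ (by positivity) hbig
  refine this.trans (le_of_eq ?_)
  rw [hr]
  field_simp
  ring

theorem exists_ach_of_not_uc (h : ¬ HasEquivUniformlyConvexNorm X) :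
    ∃ ε : ℝ, 0 < ε ∧ ∀ n : ℕ, ∃ (x : X) (s : ℝ), Ach ε n x s ∧ 1 / 2 < s := by
  by_contra hcon
  push Not at hcon
  apply h
  obtain ⟨F, hF, hG⟩ := exists_goodFun_all (X := X) fun ε hε => by
    obtain ⟨n, hn⟩ := hcon (ε / 2) (by positivity)
    have := exists_goodFun hn
    rwa [show 2 * (ε / 2) = ε by ring] at this
  exact uc_of_goodFun hF hG

end Crest.Agent.R140
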