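import Mathlib

/-!
A spreading invariant ultrafilter on sequences of naturals, and finitely supported almost
invariant measures obtained from it by a separation argument.
-/

set_option autoImplicit false

namespace Crest.Agent.R140

open Filter Topology

/-- iterated ultrafilter on increasing tuples -/
noncomputable def W : (n : ℕ) → Ultrafilter (Fin n → ℕ)
  | 0 => pure Fin.elim0
  | n + 1 => (hyperfilter ℕ).bind fun k => (W n).map (fun f => (Fin.cons k f : Fin (n + 1) → ℕ))

theorem mem_ubind {α β : Type*} (f : Ultrafilter α) (m : α → Ultrafilter β) (s : Set β) :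
    s ∈ f.bind m ↔ ∀ᶠ a in (f : Filter α), s ∈ m a := Iff.rfl

theorem mem_W_succ (n : ℕ) (s : Set (Fin (n + 1) → ℕ)) :
    s ∈ W (n + 1) ↔ ∀ᶠ k in (hyperfilter ℕ : Filter ℕ),
      (fun f => (Fin.cons k f : Fin (n + 1) → ℕ)) ⁻¹' s ∈ W n := Iff.rfl

theorem ultra_fin_zero (U V : Ultrafilter (Fin 0 → ℕ)) : U = V := by
  have key : ∀ U : Ultrafilter (Fin 0 → ℕ), U = pure Fin.elim0 := by
    intro U
    obtain ⟨a, ha⟩ := Ultrafilter.eq_pure_of_finite U
    rw [ha, Subsingleton.elim a Fin.elim0]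
  rw [key U, key V]

theorem W_map : ∀ (n m : ℕ) (ι : Fin m → Fin n), StrictMono ι →
    (W n).map (fun k => k ∘ ι) = W m := by
  intro n
  induction n with
  | zero =>
    intro m ι _
    rcases m with _ | m
    · exact ultra_fin_zero _ _
    · exact (ι 0).elim0
  | succ n ih =>
    intro m ι hι
    rcases m with _ | m
    · exact ultra_fin_zero _ _
    have hne : ∀ j : Fin m, ι j.succ ≠ 0 := fun j =>
      ne_of_gt (lt_of_le_of_lt (Fin.zero_le _) (hι (Fin.succ_pos j)))
    by_cases h0 : ι 0 = 0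
    · set ι' : Fin m → Fin n := fun j => (ι j.succ).pred (hne j) with hι'
      have hι'm : StrictMono ι' := fun a b hab =>
        Fin.pred_lt_pred_iff.2 (hι (Fin.succ_lt_succ_iff.2 hab))
      have hc : ∀ (k : ℕ) (f : Fin n → ℕ), (Fin.cons k f : Fin (n + 1) → ℕ) ∘ ι =
          (Fin.cons k (f ∘ ι') : Fin (m + 1) → ℕ) := by
        intro k f
        funext j
        refine Fin.cases ?_ (fun j => ?_) j
        · simp [h0]
        · have : ι j.succ = (ι' j).succ := by simp [hι']
          simp [this]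
      ext s
      rw [Ultrafilter.mem_map, mem_W_succ, mem_W_succ]
      refine eventually_congr (Eventually.of_forall fun k => ?_)
      rw [← ih m ι' hι'm, Ultrafilter.mem_map]
      refine iff_of_eq (congrArg (· ∈ W n) ?_)
      ext f
      simp only [Set.mem_preimage, hc]
    · have hne' : ∀ j : Fin (m + 1), ι j ≠ 0 := fun j => Fin.cases h0 hne j
      set ι' : Fin (m + 1) → Fin n := fun j => (ι j).pred (hne' j) with hι'
      have hι'm : StrictMono ι' := fun a b hab => Fin.pred_lt_pred_iff.2 (hι hab)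
      have hc : ∀ (k : ℕ) (f : Fin n → ℕ), (Fin.cons k f : Fin (n + 1) → ℕ) ∘ ι = f ∘ ι' := by
        intro k f
        funext j
        have : ι j = (ι' j).succ := by simp [hι']
        simp [this]
      ext s
      rw [Ultrafilter.mem_map, mem_W_succ, ← ih (m + 1) ι' hι'm, Ultrafilter.mem_map]
      have : ∀ k : ℕ, (fun f => (Fin.cons k f : Fin (n + 1) → ℕ)) ⁻¹' ((fun k => k ∘ ι) ⁻¹' s) =
          (fun k => k ∘ ι') ⁻¹' s := by
        intro k
        ext f
        simp only [Set.mem_preimage, hc]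
      simp only [this]
      exact eventually_const

theorem hyper_ge (c : ℕ) : ∀ᶠ k in (hyperfilter ℕ : Filter ℕ), c ≤ k :=
  (Nat.hyperfilter_le_atTop) (eventually_ge_atTop c)

theorem W_mono : ∀ (n c : ℕ), {k : Fin n → ℕ | StrictMono k ∧ ∀ j, c ≤ k j} ∈ W n := by
  intro n
  induction n with
  | zero =>
    intro c
    refine univ_mem' fun k => ⟨fun a => a.elim0, fun a => a.elim0⟩
  | succ n ih =>
    intro c
    rw [mem_W_succ]
    filter_upwards [hyper_ge c] with k hk
    refine mem_of_superset (ih (k + 1)) fun f hf => ⟨?_, ?_⟩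
    · rw [Fin.strictMono_cons]
      exact ⟨fun j => hf.2 j, hf.1⟩
    · intro j
      refine Fin.cases hk (fun j => ?_) j
      have := hf.2 j
      simp only [Fin.cons_succ]
      omega

/-- the ultrafilter on sequences -/
noncomputable def Winf : Ultrafilter (ℕ → ℕ) :=
  (hyperfilter ℕ).bind fun n => (W n).map fun k j => if h : j < n then k ⟨j, h⟩ else 0

theorem Winf_map_fin (m : ℕ) (ι : Fin m → ℕ) (hι : StrictMono ι) :
    Winf.map (fun k => k ∘ ι) = W m := by
  obtain ⟨c, hc⟩ : ∃ c, ∀ j, ι j < c := by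
    obtain ⟨c, hc⟩ := (Set.finite_range ι).bddAbove
    exact ⟨c + 1, fun j => Nat.lt_succ_of_le (hc ⟨j, rfl⟩)⟩
  ext s
  rw [Ultrafilter.mem_map, Winf, mem_ubind]
  have : ∀ᶠ n in (hyperfilter ℕ : Filter ℕ), ((fun k => k ∘ ι) ⁻¹' s ∈
      (W n).map fun k j => if h : j < n then k ⟨j, h⟩ else 0) ↔ s ∈ W m := by
    filter_upwards [hyper_ge c] with n hn
    have hlt : ∀ j, ι j < n := fun j => lt_of_lt_of_le (hc j) hn
    rw [← W_map n m (fun j => ⟨ι j, hlt j⟩) (fun a b hab => hι hab), Ultrafilter.mem_map,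
      Ultrafilter.mem_map]
    refine iff_of_eq (congrArg (· ∈ W n) ?_)
    ext f
    simp only [Set.mem_preimage]
    refine iff_of_eq (congrArg (· ∈ s) ?_)
    funext j
    simp [hlt j]
  rw [eventually_congr this]
  exact eventually_const

theorem Winf_map_eq {Λ : Type} [Fintype Λ] [LinearOrder Λ] (ι₁ ι₂ : Λ → ℕ) (h₁ : StrictMono ι₁)
    (h₂ : StrictMono ι₂) : Winf.map (fun k => k ∘ ι₁) = Winf.map (fun k => k ∘ ι₂) := by
  set e := monoEquivOfFin Λ rfl
  have key : ∀ ι : Λ → ℕ, StrictMono ι → Winf.map (fun k => k ∘ ι) =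
      (W (Fintype.card Λ)).map (fun f => f ∘ e.symm) := by
    intro ι hι
    rw [← Winf_map_fin _ (ι ∘ e) (hι.comp e.strictMono), Ultrafilter.map_map]
    congr 1
    funext k
    funext x
    simp
  rw [key ι₁ h₁, key ι₂ h₂]

theorem Winf_mono (N : ℕ) : {k : ℕ → ℕ | StrictMonoOn k (Set.Iio N)} ∈ Winf := by
  have h := W_mono N 0
  rw [← Winf_map_fin N (fun j => (j : ℕ)) (fun a b hab => hab), Ultrafilter.mem_map] at h
  refine mem_of_superset h fun k hk => ?_
  intro a ha b hb hab
  exact hk.1 (show (⟨a, ha⟩ : Fin N) < ⟨b, hb⟩ from hab)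

theorem exists_tendsto_of_bdd {α : Type*} (U : Ultrafilter α) (F : α → ℝ) (C : ℝ)
    (h : ∀ a, |F a| ≤ C) : ∃ L, Tendsto F U (𝓝 L) := by
  obtain ⟨L, -, hL⟩ := (isCompact_Icc (a := -C) (b := C)).ultrafilter_le_nhds (U.map F) (by
    rw [le_principal_iff]
    exact Ultrafilter.mem_map.2 (univ_mem' fun a => abs_le.1 (h a)))
  exact ⟨L, hL⟩

theorem day {B A σ : Type} [DecidableEq A] [Fintype σ] [DecidableEq σ] (V : Ultrafilter B)
    (r₀ : B → A) (r : σ → B → A) (h : ∀ s, V.map (r s) = V.map r₀) (G : Set B) (hG : G ∈ V)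
    {ε : ℝ} (hε : 0 < ε) :
    ∃ (I : Type) (_ : Fintype I) (w : I → ℝ) (k : I → B), (∀ i, 0 ≤ w i) ∧ ∑ i, w i = 1 ∧
      (∀ i, k i ∈ G) ∧ ∀ F : Finset A, ∑ s, ∑ v ∈ F,
        |∑ i, w i * (if r s (k i) = v then 1 else 0) -
          ∑ i, w i * (if r₀ (k i) = v then 1 else 0)| ≤ ε := by
  let E := lp (fun _ : σ × A => ℝ) 1
  let x : B → E := fun b => ∑ s, (lp.single 1 (s, r s b) (1 : ℝ) - lp.single 1 (s, r₀ b) (1 : ℝ))
  have h0 : (0 : E) ∈ closure (convexHull ℝ (x '' G)) := by
    by_contra hcon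
    obtain ⟨f, u, hu0, hu⟩ := geometric_hahn_banach_point_closed
      (convex_convexHull ℝ (x '' G)).closure isClosed_closure hcon
    rw [map_zero] at hu0
    set F : σ → A → ℝ := fun s a => f (lp.single 1 (s, a) (1 : ℝ)) with hF
    have hFb : ∀ s a, |F s a| ≤ ‖f‖ := by
      intro s a
      have := f.le_opNorm (lp.single 1 (s, a) (1 : ℝ))
      rw [lp.norm_single (by norm_num)] at this
      simpa using this
    have hlim : ∀ s, Tendsto (fun b => F s (r s b) - F s (r₀ b)) V (𝓝 0) := by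
      intro s
      obtain ⟨L, hL⟩ := exists_tendsto_of_bdd (V.map r₀) (F s) _ (hFb s)
      have h1 : Tendsto (fun b => F s (r₀ b)) V (𝓝 L) := hL
      have h2 : Tendsto (fun b => F s (r s b)) V (𝓝 L) := by
        rw [← h s] at hL
        exact hL
      simpa using h2.sub h1
    have hsum : Tendsto (fun b => f (x b)) V (𝓝 0) := by
      have := tendsto_finsetSum Finset.univ fun s _ => hlim s
      simp only [Finset.sum_const_zero] at this
      refine this.congr fun b => ?_
      simp only [x, map_sum, map_sub, hF]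
    obtain ⟨b, hb1, hb2⟩ := ((hsum.eventually (gt_mem_nhds hu0)).and hG).exists
    have := hu (x b) (subset_closure (subset_convexHull ℝ _ ⟨b, hb2, rfl⟩))
    linarith
  obtain ⟨y, hy, hyε⟩ := Metric.mem_closure_iff.1 h0 ε hε
  rw [dist_comm, dist_zero_right] at hyε
  obtain ⟨I, _, w, z, hw, hw1, hz, hzy⟩ := mem_convexHull_iff_exists_fintype.1 hy
  choose k hk hkz using hz
  refine ⟨I, inferInstance, w, k, hw, hw1, hk, fun F => ?_⟩
  have hyv : ∀ s v, y (s, v) = ∑ i, w i * (if r s (k i) = v then 1 else 0) -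
      ∑ i, w i * (if r₀ (k i) = v then 1 else 0) := by
    intro s v
    rw [← hzy, ← Finset.sum_sub_distrib, lp.coeFn_sum, Finset.sum_apply]
    refine Finset.sum_congr rfl fun i _ => ?_
    rw [← hkz i, lp.coeFn_smul, Pi.smul_apply, smul_eq_mul, ← mul_sub]
    congr 1
    simp only [x]
    rw [lp.coeFn_sum, Finset.sum_apply, Finset.sum_eq_single s]
    · simp [lp.single_apply, Pi.single_apply, eq_comm]
    · intro s' _ hs'
      simp [lp.single_apply, hs'.symm]
    · simp
  have hle := lp.sum_rpow_le_norm_rpow (p := 1) (by simp) y (Finset.univ ×ˢ F)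
  simp only [ENNReal.toReal_one, Real.rpow_one, Finset.sum_product, Real.norm_eq_abs, hyv] at hle
  exact hle.trans hyε.le

end Crest.Agent.R140
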