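import Crest.Agent.R140.System
import Crest.Agent.R140.Ultra

/-!
Spreading invariant seminorm with Markov type and lower bound by tail sums.
-/

set_option autoImplicit false

namespace Crest.Agent.R140

open Crest.AnalysisR Filter Topology

theorem seminorm_le_l1 {Λ : Type*} (ρ : Seminorm ℝ (Λ →₀ ℝ)) (h : ∀ j, ρ (Finsupp.single j 1) ≤ 1)
    (c : Λ →₀ ℝ) : ρ c ≤ ∑ j ∈ c.support, |c j| := by
  conv_lhs => rw [← Finsupp.sum_single c, Finsupp.sum]
  refine (Finset.le_sum_of_subadditive ρ (map_zero ρ).le (map_add_le_add ρ) _ _).trans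
    (Finset.sum_le_sum fun j _ => ?_)
  rw [show Finsupp.single j (c j) = c j • Finsupp.single j (1 : ℝ) by simp, map_smul_eq_mul,
    Real.norm_eq_abs]
  exact mul_le_of_le_one_right (abs_nonneg _) (h j)

theorem exists_limit {α Λ : Type*} (U : Ultrafilter α) (ρ : α → Seminorm ℝ (Λ →₀ ℝ))
    (h : ∀ a j, ρ a (Finsupp.single j 1) ≤ 1) :
    ∃ N : Seminorm ℝ (Λ →₀ ℝ), ∀ c, Tendsto (fun a => ρ a c) U (𝓝 (N c)) := by
  have : ∀ c, ∃ L, Tendsto (fun a => ρ a c) U (𝓝 L) := fun c =>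
    exists_tendsto_of_bdd U _ (∑ j ∈ c.support, |c j|) fun a => by
      rw [abs_of_nonneg (apply_nonneg _ _)]
      exact seminorm_le_l1 _ (h a) c
  choose L hL using this
  refine ⟨Seminorm.of L (fun a b => ?_) (fun r a => ?_), hL⟩
  · exact le_of_tendsto_of_tendsto' (hL (a + b)) ((hL a).add (hL b)) fun i => map_add_le_add _ _ _
  · refine tendsto_nhds_unique (hL (r • a)) ?_
    simp only [map_smul_eq_mul]
    exact (hL a).const_mul _

theorem MT.of_tendsto {α G : Type*} [AddCommGroup G] {p K : ℝ} (hp : 0 ≤ p) {l : Filter α} [l.NeBot]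
    {ρ : α → G → ℝ} {N : G → ℝ} (h : ∀ a, MT p K (ρ a))
    (hl : ∀ c, Tendsto (fun a => ρ a c) l (𝓝 (N c))) : MT p K N := by
  intro S _ _ w P hw hw1 hP hP1 hrev f t ht
  have hl' : ∀ c, Tendsto (fun a => ρ a c ^ p) l (𝓝 (N c ^ p)) := fun c =>
    (hl c).rpow_const (Or.inr hp)
  refine le_of_tendsto_of_tendsto'
    (tendsto_finsetSum _ fun i _ => tendsto_finsetSum _ fun j _ => (hl' (f j - f i)).const_mul _)
    ((tendsto_finsetSum _ fun i _ => tendsto_finsetSum _ fun j _ =>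
      (hl' (f j - f i)).const_mul _).const_mul _) fun a => h a S w P hw hw1 hP hP1 hrev f t ht

theorem MT.comp {G H : Type*} [AddCommGroup G] [AddCommGroup H] {p K : ℝ} {ρ : H → ℝ}
    (h : MT p K ρ) (T : G →+ H) : MT p K (fun a => ρ (T a)) := by
  intro S _ _ w P hw hw1 hP hP1 hrev f t ht
  simp only [map_sub]
  exact h S w P hw hw1 hP hP1 hrev (fun i => T (f i)) t ht

theorem tau_apply {Λ : Type*} (A : Set Λ) (c : Λ →₀ ℝ) :
    tau A c = ∑ j ∈ c.support, c j * A.indicator (fun _ => (1 : ℝ)) j := by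
  unfold tau
  rw [Finsupp.linearCombination_apply, Finsupp.sum]
  rfl

theorem tau_mapDomain {Λ Λ' : Type*} (A : Set Λ') (φ : Λ → Λ') (c : Λ →₀ ℝ) :
    tau A (c.mapDomain φ) = tau (φ ⁻¹' A) c := by
  unfold tau
  rw [Finsupp.linearCombination_mapDomain]
  rfl

theorem tau_congr {Λ : Type*} {A B : Set Λ} (c : Λ →₀ ℝ) (h : ∀ x ∈ c.support, x ∈ A ↔ x ∈ B) :
    tau A c = tau B c := by
  rw [tau_apply, tau_apply]
  refine Finset.sum_congr rfl fun j hj => ?_
  by_cases hA : j ∈ A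
  · simp [hA, (h j hj).1 hA]
  · have hB : j ∉ B := fun hB => hA ((h j hj).2 hB)
    simp [hA, hB]

theorem james_map {Λ : Type*} [LinearOrder Λ] {θ : ℝ} (ρ : Seminorm ℝ (ℕ →₀ ℝ))
    (hJ : ∀ k a, θ * |tau (Set.Ici k) a| ≤ ρ a) (c : Λ →₀ ℝ) (κ : Λ → ℕ)
    (hκ : StrictMonoOn κ c.support) (A : Set Λ) (hA : IsUpperSet A) :
    θ * |tau A c| ≤ ρ (c.mapDomain κ) := by
  classical
  by_cases hne : (c.support.filter (· ∈ A)).Nonempty
  · set y := (c.support.filter (· ∈ A)).min' hne with hy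
    have hy1 := Finset.mem_filter.1 (Finset.min'_mem _ hne)
    rw [← hy] at hy1
    have := hJ (κ y) (c.mapDomain κ)
    rw [tau_mapDomain, tau_congr (B := A) c] at this
    · exact this
    · intro x hx
      simp only [Set.mem_preimage, Set.mem_Ici]
      rw [hκ.le_iff_le hy1.1 hx]
      exact ⟨fun h => hA h hy1.2, fun h => Finset.min'_le _ _ (Finset.mem_filter.2 ⟨hx, h⟩)⟩
  · have : tau A c = 0 := by
      rw [tau_apply]
      refine Finset.sum_eq_zero fun j hj => ?_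
      have : j ∉ A := fun h => hne ⟨j, Finset.mem_filter.2 ⟨hj, h⟩⟩
      simp [this]
    rw [this, abs_zero, mul_zero]
    exact apply_nonneg _ _

/-- rank function of a finite set -/
def rk {Λ : Type*} [LinearOrder Λ] (s : Finset Λ) (x : Λ) : ℕ := (s.filter (· < x)).card

theorem rk_strictMonoOn {Λ : Type*} [LinearOrder Λ] (s : Finset Λ) : StrictMonoOn (rk s) s := by
  intro a ha b _ hab
  refine Finset.card_lt_card ⟨fun x hx => ?_, fun h => ?_⟩
  · rw [Finset.mem_filter] at hx ⊢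
    exact ⟨hx.1, hx.2.trans hab⟩
  · have := h (Finset.mem_filter.2 ⟨ha, hab⟩)
    simp at this

theorem rk_le {Λ : Type*} [LinearOrder Λ] (s : Finset Λ) (x : Λ) : rk s x ≤ s.card :=
  Finset.card_filter_le _ _

/-- the properties of the spreading invariant family of seminorms -/
structure Spr (p K θ : ℝ) (N : ∀ (Λ : Type) [LinearOrder Λ], Seminorm ℝ (Λ →₀ ℝ)) : Prop where
  mt : MT p K (N ℕ)
  single : ∀ (Λ : Type) [LinearOrder Λ] (x : Λ), N Λ (Finsupp.single x 1) ≤ 1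
  james : ∀ (Λ : Type) [LinearOrder Λ] (A : Set Λ), IsUpperSet A → ∀ c, θ * |tau A c| ≤ N Λ c
  spread : ∀ (Λ₁ Λ₂ : Type) [LinearOrder Λ₁] [LinearOrder Λ₂] (φ : Λ₁ → Λ₂) (c : Λ₁ →₀ ℝ),
    StrictMonoOn φ c.support → N Λ₂ (c.mapDomain φ) = N Λ₁ c

theorem exists_spr_of_nat {p K θ : ℝ} (N : Seminorm ℝ (ℕ →₀ ℝ)) (hmt : MT p K N)
    (h1 : ∀ j, N (Finsupp.single j 1) ≤ 1) (hJ : ∀ k a, θ * |tau (Set.Ici k) a| ≤ N a)
    (hS : ∀ (Λ : Type) [LinearOrder Λ] (c : Λ →₀ ℝ) (φ₁ φ₂ : Λ → ℕ), StrictMonoOn φ₁ c.support →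
      StrictMonoOn φ₂ c.support → N (c.mapDomain φ₁) = N (c.mapDomain φ₂)) :
    ∃ M, Spr p K θ M := by
  classical
  have key : ∀ (Λ : Type) [LinearOrder Λ] (c : Λ →₀ ℝ) (s : Finset Λ), c.support ⊆ s →
      N (c.mapDomain (rk c.support)) = N (c.mapDomain (rk s)) := fun Λ _ c s hs =>
    hS Λ c _ _ (rk_strictMonoOn _) ((rk_strictMonoOn s).mono hs)
  let M : ∀ (Λ : Type) [LinearOrder Λ], Seminorm ℝ (Λ →₀ ℝ) := fun Λ _ =>
    Seminorm.of (fun c => N (c.mapDomain (rk c.support)))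
      (fun a b => by
        rw [key Λ (a + b) (a.support ∪ b.support) Finsupp.support_add,
          key Λ a (a.support ∪ b.support) Finset.subset_union_left,
          key Λ b (a.support ∪ b.support) Finset.subset_union_right, Finsupp.mapDomain_add]
        exact map_add_le_add _ _ _)
      (fun r a => by
        rw [key Λ (r • a) a.support Finsupp.support_smul, Finsupp.mapDomain_smul, map_smul_eq_mul])
  have hM : ∀ (Λ : Type) [LinearOrder Λ] (c : Λ →₀ ℝ), M Λ c = N (c.mapDomain (rk c.support)) :=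
    fun _ _ _ => rfl
  refine ⟨M, ?_, ?_, ?_, ?_⟩
  · have : (M ℕ : (ℕ →₀ ℝ) → ℝ) = N := by
      funext c
      rw [hM, hS ℕ c _ id (rk_strictMonoOn _) strictMonoOn_id, Finsupp.mapDomain_id]
    rw [this]
    exact hmt
  · intro Λ _ x
    rw [hM, Finsupp.mapDomain_single]
    exact h1 _
  · intro Λ _ A hA c
    exact james_map N hJ c _ (rk_strictMonoOn _) A hA
  · intro Λ₁ Λ₂ _ _ φ c hφ
    rw [hM, hM, key Λ₂ _ (c.support.image φ) Finsupp.mapDomain_support, ← Finsupp.mapDomain_comp]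
    refine hS Λ₁ c _ _ ?_ (rk_strictMonoOn _)
    intro a ha b hb hab
    exact rk_strictMonoOn _ (Finset.mem_coe.2 (Finset.mem_image_of_mem φ ha))
      (Finset.mem_coe.2 (Finset.mem_image_of_mem φ hb)) (hφ ha hb hab)

theorem exists_spr {X : Type*} [NormedAddCommGroup X] [NormedSpace ℝ X] {p K : ℝ} (hp : 1 ≤ p)
    (hX : HasMarkovType X p K) (h : ¬ HasEquivUniformlyConvexNorm X) :
    ∃ θ : ℝ, 0 < θ ∧ ∃ M, Spr p K θ M := by
  classical
  obtain ⟨θ, hθ, H⟩ := exists_seminorms hp hX h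
  choose ρ hmt h1 hJ using H
  obtain ⟨ρ₀, hρ₀⟩ := exists_limit (hyperfilter ℕ) ρ h1
  have mt₀ : MT p K ρ₀ := MT.of_tendsto (by linarith) hmt hρ₀
  have h1₀ : ∀ j, ρ₀ (Finsupp.single j 1) ≤ 1 := fun j =>
    le_of_tendsto' (hρ₀ _) fun n => h1 n j
  have hJ₀ : ∀ k a, θ * |tau (Set.Ici k) a| ≤ ρ₀ a := fun k a =>
    ge_of_tendsto (hρ₀ a) ((hyper_ge (k + 1)).mono fun n hn => hJ n k hn a)
  obtain ⟨N, hN⟩ := exists_limit Winf (fun k => ρ₀.comp (Finsupp.lmapDomain ℝ ℝ k)) (fun k j => by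
    simp only [Seminorm.comp_apply, Finsupp.lmapDomain_apply, Finsupp.mapDomain_single]
    exact h1₀ _)
  simp only [Seminorm.comp_apply, Finsupp.lmapDomain_apply] at hN
  refine ⟨θ, hθ, exists_spr_of_nat N ?_ ?_ ?_ ?_⟩
  · exact MT.of_tendsto (by linarith)
      (fun k => mt₀.comp (Finsupp.mapDomain.addMonoidHom k)) hN
  · intro j
    refine le_of_tendsto' (hN _) fun k => ?_
    rw [Finsupp.mapDomain_single]
    exact h1₀ _
  · intro k a
    obtain ⟨R, hR⟩ : ∃ R, a.support ⊆ Finset.range R := Finset.exists_nat_subset_range _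
    refine ge_of_tendsto (hN a) (mem_of_superset (Winf_mono R) fun κ hκ => ?_)
    refine james_map ρ₀ hJ₀ a κ (StrictMonoOn.mono hκ fun x hx => ?_) _ (isUpperSet_Ici k)
    simpa using hR hx
  · intro Λ _ c φ₁ φ₂ h₁ h₂
    set Ψ : (↥c.support → ℕ) → ℝ := fun g =>
      ρ₀ (c.mapDomain fun x => if h : x ∈ c.support then g ⟨x, h⟩ else 0) with hΨ
    have key : ∀ φ : Λ → ℕ, Tendsto Ψ (Winf.map fun k => k ∘ fun x : ↥c.support => φ x)
        (𝓝 (N (c.mapDomain φ))) := by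
      intro φ
      rw [Ultrafilter.coe_map, tendsto_map'_iff]
      refine (hN (c.mapDomain φ)).congr fun k => ?_
      rw [← Finsupp.mapDomain_comp]
      simp only [hΨ, Function.comp_apply]
      congr 1
      refine Finsupp.mapDomain_congr fun x hx => ?_
      rw [dif_pos hx]
      rfl
    have e := Winf_map_eq (fun x : ↥c.support => φ₁ x) (fun x : ↥c.support => φ₂ x)
      (fun a b hab => h₁ a.2 b.2 hab) (fun a b hab => h₂ a.2 b.2 hab)
    have k1 := key φ₁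
    rw [e] at k1
    exact tendsto_nhds_unique k1 (key φ₂)

end Crest.Agent.R140
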