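import Crest.Agent.R140.Renorm

/-!
From martingale trees to seminorms on finitely supported sequences with Markov type and a
lower bound by tail sums.
-/

set_option autoImplicit false

namespace Crest.Agent.R140

open Crest.AnalysisR

/-- Markov type inequality for a function `ρ` on an additive group. -/
def MT {G : Type*} [AddCommGroup G] (p K : ℝ) (ρ : G → ℝ) : Prop :=
  ∀ (S : Type) [Fintype S] [DecidableEq S] (w : S → ℝ) (P : Matrix S S ℝ),
    (∀ i, 0 ≤ w i) → ∑ i, w i = 1 → (∀ i j, 0 ≤ P i j) → (∀ i, ∑ j, P i j = 1) →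
    (∀ i j, w i * P i j = w j * P j i) →
    ∀ (f : S → G) (t : ℕ), 1 ≤ t →
      ∑ i, ∑ j, w i * (P ^ t) i j * ρ (f j - f i) ^ p ≤
        K ^ p * t * ∑ i, ∑ j, w i * P i j * ρ (f j - f i) ^ p

/-- sum of the coefficients over a set -/
noncomputable def tau {Λ : Type*} (A : Set Λ) : (Λ →₀ ℝ) →ₗ[ℝ] ℝ :=
  Finsupp.linearCombination ℝ (A.indicator fun _ => (1 : ℝ))

variable {X : Type*} [NormedAddCommGroup X] [NormedSpace ℝ X]

theorem jensen_norm {Ω : Type*} [Fintype Ω] {p : ℝ} (hp : 1 ≤ p) (w : Ω → ℝ) (hw : ∀ ω, 0 ≤ w ω)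
    (hw1 : ∑ ω, w ω = 1) (u : Ω → X) : ‖∑ ω, w ω • u ω‖ ^ p ≤ ∑ ω, w ω * ‖u ω‖ ^ p := by
  have h1 : ‖∑ ω, w ω • u ω‖ ≤ ∑ ω, w ω * ‖u ω‖ := by
    refine (norm_sum_le _ _).trans (le_of_eq ?_)
    refine Finset.sum_congr rfl fun ω _ => ?_
    rw [norm_smul, Real.norm_of_nonneg (hw ω)]
  refine (Real.rpow_le_rpow (norm_nonneg _) h1 (by linarith)).trans ?_
  exact Real.rpow_arith_mean_le_arith_mean_rpow Finset.univ w (fun ω => ‖u ω‖)
    (fun ω _ => hw ω) hw1 (fun ω _ => norm_nonneg _) hp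

theorem half_diff_le {p : ℝ} (hp : 1 ≤ p) (u v : X) :
    ‖(1 / 2 : ℝ) • (u - v)‖ ^ p ≤ (1 / 2) * ‖u‖ ^ p + (1 / 2) * ‖v‖ ^ p := by
  have := jensen_norm (Ω := Fin 2) hp (fun _ => 1 / 2) (fun _ => by norm_num) (by simp) ![u, -v]
  simp only [Fin.sum_univ_two, Matrix.cons_val_zero, Matrix.cons_val_one, norm_neg] at this
  rw [sub_eq_add_neg, smul_add]
  exact this

/-- the martingale system attached to a tree -/
def Sys (p ε : ℝ) (n : ℕ) (x : X) (s : ℝ) : Prop :=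
  ∃ (Ω : Type) (_ : Fintype Ω) (w : Ω → ℝ) (Y : ℕ → Ω → X), (∀ ω, 0 ≤ w ω) ∧ ∑ ω, w ω = 1 ∧
    (∀ j ω, ‖Y j ω‖ ≤ 1) ∧ (∀ j, ∑ ω, w ω • Y j ω = x) ∧
    ∀ k < n, ∀ (R : ℕ) (a : ℕ → ℝ) (v : X),
      s * (ε * |∑ j ∈ Finset.range R, if k ≤ j then a j else 0|) ^ p ≤
        ∑ ω, w ω * ‖v + ∑ j ∈ Finset.range R, a j • Y j ω‖ ^ p

theorem Ach.sys {p ε : ℝ} (hp : 1 ≤ p) (hε : 0 ≤ ε) {n : ℕ} {x : X} {s : ℝ} (h : Ach ε n x s) :
    Sys p ε n x s := by
  induction h with
  | one x hx =>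
    exact ⟨Unit, inferInstance, fun _ => 1, fun _ _ => x, fun _ => zero_le_one, by simp,
      fun _ _ => hx, fun _ => by simp, fun k hk => absurd hk (Nat.not_lt_zero k)⟩
  | zero n x hx =>
    refine ⟨Unit, inferInstance, fun _ => 1, fun _ _ => x, fun _ => zero_le_one, by simp,
      fun _ _ => hx, fun _ => by simp, fun k _ R a v => ?_⟩
    rw [zero_mul]
    exact Finset.sum_nonneg fun _ _ => by positivity
  | mix n y z s₁ s₂ a b _ _ ha hb hab ih₁ ih₂ =>
    obtain ⟨Ω₁, i₁, w₁, Y₁, hw₁, hs₁, hY₁, hm₁, hJ₁⟩ := ih₁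
    obtain ⟨Ω₂, i₂, w₂, Y₂, hw₂, hs₂, hY₂, hm₂, hJ₂⟩ := ih₂
    refine ⟨Ω₁ ⊕ Ω₂, inferInstance, Sum.elim (fun ω => a * w₁ ω) (fun ω => b * w₂ ω),
      fun j => Sum.elim (Y₁ j) (Y₂ j), ?_, ?_, ?_, ?_, ?_⟩
    · rintro (ω | ω)
      · exact mul_nonneg ha (hw₁ ω)
      · exact mul_nonneg hb (hw₂ ω)
    · simp only [Fintype.sum_sum_type, Sum.elim_inl, Sum.elim_inr, ← Finset.mul_sum, hs₁, hs₂]
      linarith
    · rintro j (ω | ω)
      · exact hY₁ j ω
      · exact hY₂ j ω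
    · intro j
      simp only [Fintype.sum_sum_type, Sum.elim_inl, Sum.elim_inr, mul_smul, ← Finset.smul_sum,
        hm₁, hm₂]
    · intro k hk R c v
      have h1 := hJ₁ k hk R c v
      have h2 := hJ₂ k hk R c v
      simp only [Fintype.sum_sum_type, Sum.elim_inl, Sum.elim_inr, mul_assoc, ← Finset.mul_sum]
      nlinarith [mul_le_mul_of_nonneg_left h1 ha, mul_le_mul_of_nonneg_left h2 hb]
  | jump n y z s₁ s₂ hy hz hyz ih₁ ih₂ =>
    obtain ⟨Ω₁, i₁, w₁, Y₁, hw₁, hs₁, hY₁, hm₁, hJ₁⟩ := ih₁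
    obtain ⟨Ω₂, i₂, w₂, Y₂, hw₂, hs₂, hY₂, hm₂, hJ₂⟩ := ih₂
    refine ⟨Ω₁ ⊕ Ω₂, inferInstance, Sum.elim (fun ω => (1 / 2) * w₁ ω) (fun ω => (1 / 2) * w₂ ω),
      fun j => Nat.casesOn j (Sum.elim (fun _ => y) (fun _ => z))
        (fun j => Sum.elim (Y₁ j) (Y₂ j)), ?_, ?_, ?_, ?_, ?_⟩
    · rintro (ω | ω)
      · exact mul_nonneg (by norm_num) (hw₁ ω)
      · exact mul_nonneg (by norm_num) (hw₂ ω)
    · simp only [Fintype.sum_sum_type, Sum.elim_inl, Sum.elim_inr, ← Finset.mul_sum, hs₁, hs₂]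
      norm_num
    · rintro (_ | j) (ω | ω)
      · exact hy.bounds.1
      · exact hz.bounds.1
      · exact hY₁ j ω
      · exact hY₂ j ω
    · rintro (_ | j)
      · simp only [Fintype.sum_sum_type, Sum.elim_inl, Sum.elim_inr, mul_smul, ← Finset.smul_sum,
          Nat.rec_zero, ← Finset.sum_smul, hs₁, hs₂, one_smul, smul_add]
      · simp only [Fintype.sum_sum_type, Sum.elim_inl, Sum.elim_inr, mul_smul, ← Finset.smul_sum,
          hm₁, hm₂, smul_add]
    · intro k hk R c v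
      rcases R with _ | R
      · simp only [Finset.range_zero, Finset.sum_empty, abs_zero, mul_zero]
        rw [Real.zero_rpow (by linarith), mul_zero]
        refine Finset.sum_nonneg fun ω _ => mul_nonneg ?_ (by positivity)
        rcases ω with ω | ω
        · exact mul_nonneg (by norm_num) (hw₁ ω)
        · exact mul_nonneg (by norm_num) (hw₂ ω)
      simp only [Fintype.sum_sum_type, Sum.elim_inl, Sum.elim_inr, mul_assoc, ← Finset.mul_sum,
        Finset.sum_range_succ' _ R, Nat.rec_zero]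
      have e1 : ∀ ω, v + (∑ j ∈ Finset.range R, c (j + 1) • Y₁ j ω + c 0 • y) =
          (v + c 0 • y) + ∑ j ∈ Finset.range R, c (j + 1) • Y₁ j ω := fun ω => by abel
      have e2 : ∀ ω, v + (∑ j ∈ Finset.range R, c (j + 1) • Y₂ j ω + c 0 • z) =
          (v + c 0 • z) + ∑ j ∈ Finset.range R, c (j + 1) • Y₂ j ω := fun ω => by abel
      simp only [e1, e2]
      rcases k with _ | k
      · simp only [Nat.zero_le, if_true]
        set A : ℝ := ∑ j ∈ Finset.range R, c (j + 1) + c 0 with hA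
        have j1 := jensen_norm hp w₁ hw₁ hs₁
          (fun ω => (v + c 0 • y) + ∑ j ∈ Finset.range R, c (j + 1) • Y₁ j ω)
        have j2 := jensen_norm hp w₂ hw₂ hs₂
          (fun ω => (v + c 0 • z) + ∑ j ∈ Finset.range R, c (j + 1) • Y₂ j ω)
        have m1 : ∑ ω, w₁ ω • ((v + c 0 • y) + ∑ j ∈ Finset.range R, c (j + 1) • Y₁ j ω)
            = v + A • y := by
          simp only [smul_add, Finset.sum_add_distrib, ← Finset.sum_smul, hs₁, one_smul,
            Finset.smul_sum]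
          rw [Finset.sum_comm]
          simp only [smul_comm (w₁ _) (c _), ← Finset.smul_sum, hm₁, ← Finset.sum_smul, hA,
            add_smul]
          abel
        have m2 : ∑ ω, w₂ ω • ((v + c 0 • z) + ∑ j ∈ Finset.range R, c (j + 1) • Y₂ j ω)
            = v + A • z := by
          simp only [smul_add, Finset.sum_add_distrib, ← Finset.sum_smul, hs₂, one_smul,
            Finset.smul_sum]
          rw [Finset.sum_comm]
          simp only [smul_comm (w₂ _) (c _), ← Finset.smul_sum, hm₂, ← Finset.sum_smul, hA,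
            add_smul]
          abel
        rw [m1] at j1
        rw [m2] at j2
        have h3 := half_diff_le hp (v + A • y) (v + A • z)
        have h4 : ε * |A| ≤ ‖(1 / 2 : ℝ) • (v + A • y - (v + A • z))‖ := by
          rw [add_sub_add_left_eq_sub, ← smul_sub, norm_smul, norm_smul, Real.norm_eq_abs A]
          have h12 : ‖(1 / 2 : ℝ)‖ = 1 / 2 := by norm_num
          rw [h12]
          nlinarith [abs_nonneg A]
        have h5 := Real.rpow_le_rpow (by positivity) h4 (show 0 ≤ p by linarith)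
        have h6 : (s₁ + s₂) / 2 ≤ 1 := by linarith [hy.bounds.2.2, hz.bounds.2.2]
        have h7 : 0 ≤ (ε * |A|) ^ p := by positivity
        nlinarith
      · have h1 := hJ₁ k (by omega) R (fun j => c (j + 1)) (v + c 0 • y)
        have h2 := hJ₂ k (by omega) R (fun j => c (j + 1)) (v + c 0 • z)
        simp only [Nat.add_le_add_iff_right, Nat.le_zero, Nat.add_eq_zero_iff, one_ne_zero,
          and_false, if_false, add_zero]
        nlinarith

theorem tau_eq_sum_range (k R : ℕ) (a : ℕ →₀ ℝ) (hR : a.support ⊆ Finset.range R) :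
    tau (Set.Ici k) a = ∑ j ∈ Finset.range R, if k ≤ j then a j else 0 := by
  unfold tau
  rw [Finsupp.linearCombination_apply, Finsupp.sum_of_support_subset _ hR _ (by simp)]
  refine Finset.sum_congr rfl fun j _ => ?_
  by_cases h : k ≤ j <;> simp [Set.indicator, h]

theorem exists_seminorm_of_sys {p K ε s : ℝ} (hp : 1 ≤ p) (hε : 0 ≤ ε) (hX : HasMarkovType X p K)
    {n : ℕ} {x : X} (h : Sys p ε n x s) (hs : 1 / 2 ≤ s) :
    ∃ ρ : Seminorm ℝ (ℕ →₀ ℝ), MT p K ρ ∧ (∀ j, ρ (Finsupp.single j 1) ≤ 1) ∧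
      ∀ k < n, ∀ a, ε / 2 * |tau (Set.Ici k) a| ≤ ρ a := by
  obtain ⟨Ω, _, w, Y, hw, hw1, hY, -, hJ⟩ := h
  have hp0 : 0 < p := by linarith
  set T : Ω → (ℕ →₀ ℝ) →ₗ[ℝ] X := fun ω => Finsupp.linearCombination ℝ fun j => Y j ω with hT
  set Φ : (ℕ →₀ ℝ) → ℝ := fun a => ∑ ω, w ω * ‖T ω a‖ ^ p with hΦ
  have hΦ0 : ∀ a, 0 ≤ Φ a := fun a =>
    Finset.sum_nonneg fun ω _ => mul_nonneg (hw ω) (by positivity)
  have hΦ' : ∀ a, Φ a = ∑ ω, (w ω ^ (1 / p) * ‖T ω a‖) ^ p := by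
    intro a
    refine Finset.sum_congr rfl fun ω _ => ?_
    rw [Real.mul_rpow (Real.rpow_nonneg (hw ω) _) (norm_nonneg _), ← Real.rpow_mul (hw ω),
      one_div_mul_cancel hp0.ne', Real.rpow_one]
  let ρ : Seminorm ℝ (ℕ →₀ ℝ) := Seminorm.of (fun a => Φ a ^ (1 / p))
    (fun a b => by
      rw [hΦ' a, hΦ' b]
      refine le_trans ?_ (Real.Lp_add_le_of_nonneg Finset.univ hp
        (fun ω _ => mul_nonneg (Real.rpow_nonneg (hw ω) _) (norm_nonneg _))
        (fun ω _ => mul_nonneg (Real.rpow_nonneg (hw ω) _) (norm_nonneg _)))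
      refine Real.rpow_le_rpow (hΦ0 _) ?_ (by positivity)
      rw [hΦ']
      refine Finset.sum_le_sum fun ω _ => Real.rpow_le_rpow
        (mul_nonneg (Real.rpow_nonneg (hw ω) _) (norm_nonneg _)) ?_ hp0.le
      rw [← mul_add, map_add]
      exact mul_le_mul_of_nonneg_left (norm_add_le _ _) (Real.rpow_nonneg (hw ω) _))
    (fun c a => by
      have : Φ (c • a) = ‖c‖ ^ p * Φ a := by
        simp only [hΦ, Finset.mul_sum, map_smul, norm_smul]
        refine Finset.sum_congr rfl fun ω _ => ?_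
        rw [Real.mul_rpow (norm_nonneg _) (norm_nonneg _)]
        ring
      rw [this, Real.mul_rpow (by positivity) (hΦ0 a), ← Real.rpow_mul (norm_nonneg _),
        mul_one_div_cancel hp0.ne', Real.rpow_one])
  have hρ : ∀ a, ρ a = Φ a ^ (1 / p) := fun a => rfl
  have hρp : ∀ a, ρ a ^ p = Φ a := fun a => by
    rw [hρ, ← Real.rpow_mul (hΦ0 a), one_div_mul_cancel hp0.ne', Real.rpow_one]
  refine ⟨ρ, ?_, ?_, ?_⟩
  · intro S _ _ μ P hμ hμ1 hP hP1 hrev f t ht
    have swap : ∀ (M : S → S → ℝ), ∑ i, ∑ j, M i j * ρ (f j - f i) ^ p =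
        ∑ ω, w ω * ∑ i, ∑ j, M i j * ‖T ω (f j) - T ω (f i)‖ ^ p := by
      intro M
      simp only [hρp, hΦ, Finset.mul_sum, map_sub]
      symm
      rw [Finset.sum_comm]
      refine Finset.sum_congr rfl fun i _ => ?_
      rw [Finset.sum_comm]
      refine Finset.sum_congr rfl fun j _ => Finset.sum_congr rfl fun ω _ => ?_
      ring
    rw [swap (fun i j => μ i * (P ^ t) i j), swap (fun i j => μ i * P i j), Finset.mul_sum]
    refine Finset.sum_le_sum fun ω _ => ?_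
    have := mul_le_mul_of_nonneg_left
      (hX S μ P hμ hμ1 hP hP1 hrev (fun i => T ω (f i)) t ht) (hw ω)
    refine this.trans (le_of_eq ?_)
    ring
  · intro j
    rw [hρ]
    refine Real.rpow_le_one (hΦ0 _) ?_ (by positivity)
    refine le_trans ?_ hw1.le
    refine Finset.sum_le_sum fun ω _ => mul_le_of_le_one_right (hw ω) ?_
    refine Real.rpow_le_one (norm_nonneg _) ?_ hp0.le
    simp only [hT, Finsupp.linearCombination_single, one_smul]
    exact hY j ω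
  · intro k hk a
    obtain ⟨R, hR⟩ : ∃ R, a.support ⊆ Finset.range R := Finset.exists_nat_subset_range _
    have h1 := hJ k hk R a 0
    rw [← tau_eq_sum_range k R a hR] at h1
    have h2 : Φ a = ∑ ω, w ω * ‖0 + ∑ j ∈ Finset.range R, a j • Y j ω‖ ^ p := by
      refine Finset.sum_congr rfl fun ω _ => ?_
      simp only [hT, zero_add]
      rw [Finsupp.linearCombination_apply, Finsupp.sum_of_support_subset _ hR _ (by simp)]
    rw [← h2, ← hρp] at h1
    have h3 : (ε / 2 * |tau (Set.Ici k) a|) ^ p ≤ s * (ε * |tau (Set.Ici k) a|) ^ p := by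
      rw [show ε / 2 * |tau (Set.Ici k) a| = (1 / 2) * (ε * |tau (Set.Ici k) a|) by ring,
        Real.mul_rpow (by norm_num) (by positivity)]
      refine mul_le_mul_of_nonneg_right (le_trans ?_ hs) (by positivity)
      have := Real.rpow_le_rpow_of_exponent_ge (show (0 : ℝ) < 1 / 2 by norm_num) (by norm_num) hp
      simpa using this
    exact (Real.rpow_le_rpow_iff (by positivity) (apply_nonneg ρ a) hp0).1 (h3.trans h1)

theorem exists_seminorms {p K : ℝ} (hp : 1 ≤ p) (hX : HasMarkovType X p K)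
    (h : ¬ HasEquivUniformlyConvexNorm X) :
    ∃ θ : ℝ, 0 < θ ∧ ∀ n : ℕ, ∃ ρ : Seminorm ℝ (ℕ →₀ ℝ), MT p K ρ ∧
      (∀ j, ρ (Finsupp.single j 1) ≤ 1) ∧ ∀ k < n, ∀ a, θ * |tau (Set.Ici k) a| ≤ ρ a := by
  obtain ⟨ε, hε, H⟩ := exists_ach_of_not_uc h
  refine ⟨ε / 2, by positivity, fun n => ?_⟩
  obtain ⟨x, s, hx, hs⟩ := H n
  exact exists_seminorm_of_sys hp hε.le hX (hx.sys hp hε.le) hs.le

end Crest.Agent.R140
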