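import Crest.Agent.R140.Pattern

/-!
Ping-pong order automorphisms of the line and the vectors attached to words.
-/

set_option autoImplicit false

namespace Crest.Agent.R140

theorem exists_orderIso_interp (φ : ℤ → ℤ) (hφ : StrictMono φ) :
    ∃ ψ : ℝ ≃o ℝ, ∀ j : ℤ, ψ j = φ j := by
  set f : ℝ → ℝ := fun x => φ ⌊x⌋ + Int.fract x * (φ (⌊x⌋ + 1) - φ ⌊x⌋) with hf
  have hgap : ∀ j : ℤ, (0 : ℝ) < φ (j + 1) - φ j := fun j => by
    have : φ j < φ (j + 1) := hφ (by omega)
    have : (φ j : ℝ) < φ (j + 1) := by exact_mod_cast this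
    linarith
  have hmono : StrictMono f := by
    intro x y hxy
    rcases (Int.floor_mono hxy.le).eq_or_lt with h | h
    · simp only [hf, ← h]
      have : Int.fract x < Int.fract y := by
        unfold Int.fract
        rw [← h]
        linarith
      nlinarith [hgap ⌊x⌋]
    · have h1 : f x < φ (⌊x⌋ + 1) := by
        simp only [hf]
        nlinarith [hgap ⌊x⌋, Int.fract_lt_one x]
      have h2 : (φ ⌊y⌋ : ℝ) ≤ f y := by
        simp only [hf]
        nlinarith [hgap ⌊y⌋, Int.fract_nonneg y]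
      have h3 : (φ (⌊x⌋ + 1) : ℝ) ≤ φ ⌊y⌋ := by exact_mod_cast hφ.monotone (by omega)
      linarith
  have hgrow : ∀ n : ℕ, φ 0 + n ≤ φ n ∧ φ (-n) + n ≤ φ 0 := by
    intro n
    induction n with
    | zero => simp
    | succ n ih =>
      have h1 : φ n < φ (n + 1) := hφ (by omega)
      have h2 : φ (-(n + 1)) < φ (-n) := hφ (by omega)
      push_cast
      omega
  have hsurj : Function.Surjective f := by
    intro y
    obtain ⟨j, hj, hjmax⟩ := Int.exists_greatest_of_bdd (P := fun j : ℤ => φ j ≤ ⌊y⌋)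
      ⟨(⌊y⌋ - φ 0).toNat, fun z hz => by
        by_contra hcon
        have h1 := (hgrow (⌊y⌋ - φ 0).toNat).1
        have h2 : φ ((⌊y⌋ - φ 0).toNat) < φ z := hφ (not_le.1 hcon)
        omega⟩
      ⟨-((φ 0 - ⌊y⌋).toNat : ℤ), by
        have h1 := (hgrow (φ 0 - ⌊y⌋).toNat).2
        omega⟩
    have h1 : (φ j : ℝ) ≤ y := Int.le_floor.1 hj
    have h2 : y < φ (j + 1) := by
      by_contra hcon
      have := hjmax (j + 1) (Int.le_floor.2 (not_lt.1 hcon))
      omega
    set a : ℝ := (y - φ j) / (φ (j + 1) - φ j) with ha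
    have ha0 : 0 ≤ a := div_nonneg (by linarith) (hgap j).le
    have ha1 : a < 1 := by rw [ha, div_lt_one (hgap j)]; linarith
    have hfl : ⌊(j : ℝ) + a⌋ = j := by
      rw [Int.floor_eq_iff]
      constructor <;> linarith
    refine ⟨j + a, ?_⟩
    simp only [hf, Int.fract, hfl, add_sub_cancel_left]
    rw [ha, div_mul_cancel₀ _ (hgap j).ne']
    ring
  refine ⟨hmono.orderIsoOfSurjective f hsurj, fun j => ?_⟩
  simp [hf]

theorem exists_shift (φ : ℤ → ℤ) (hφ : StrictMono φ) :
    ∃ h : ℝ ≃o ℝ, ∀ j : ℤ, h (φ j) = φ (j - 1) := by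
  obtain ⟨ψ, hψ⟩ := exists_orderIso_interp φ hφ
  refine ⟨ψ.symm.trans ((OrderIso.addRight (-1 : ℝ)).trans ψ), fun j => ?_⟩
  rw [← hψ, ← hψ]
  simp [sub_eq_add_neg]

/-- shift of the index under a move -/
def sh : Bool → ℤ
  | true => 1
  | false => -1

/-- offset of the vector of a move -/
def off : Bool → ℤ
  | true => 0
  | false => -1

/-- ping-pong data -/
structure Frame (L : Type) where
  φ : L → ℤ → ℝ
  h : L → ℝ ≃o ℝ
  mono : ∀ s, StrictMono (φ s)
  shift : ∀ s j, h s (φ s j) = φ s (j - 1)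
  gap : ∀ s s', s ≠ s' → ∀ b, ∃ e : ℤ, |e| ≤ 1 ∧ ∀ n : ℤ,
    φ s (2 * n - sh b) < φ s' (2 * (n + e)) ∧ φ s' (2 * (n + e) + 1) < φ s (2 * n + 1 - sh b)

theorem exists_frame (d : ℕ) : Nonempty (Frame (Fin d)) := by
  set φ : Fin d → ℤ → ℤ := fun s j => 2 * d * (j / 2) + 2 * s + j % 2 with hφ
  have he : ∀ s (n : ℤ), φ s (2 * n) = 2 * (d * n) + 2 * s := by
    intro s n
    simp only [hφ]
    rw [show 2 * n / 2 = n by omega, show 2 * n % 2 = 0 by omega]
    ring
  have ho : ∀ s (n : ℤ), φ s (2 * n + 1) = 2 * (d * n) + 2 * s + 1 := by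
    intro s n
    simp only [hφ]
    rw [show (2 * n + 1) / 2 = n by omega, show (2 * n + 1) % 2 = 1 by omega]
    ring
  have hmono : ∀ s, StrictMono (φ s) := by
    intro s
    refine strictMono_int_of_lt_succ fun j => ?_
    obtain ⟨n, rfl | rfl⟩ := Int.even_or_odd' j
    · rw [he, ho]; omega
    · rw [show 2 * n + 1 + 1 = 2 * (n + 1) by ring, he, ho, mul_add]
      have := s.2
      omega
  choose h hh using fun s => exists_shift (φ s) (hmono s)
  refine ⟨⟨fun s j => φ s j, h, fun s a b hab => Int.cast_lt.2 (hmono s hab), hh, ?_⟩⟩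
  intro s s' hne b
  have hs := s.2
  have hs' := s'.2
  have hne' : (s : ℕ) ≠ s' := fun e => hne (Fin.ext e)
  simp only [Int.cast_lt]
  cases b
  · rcases lt_or_gt_of_ne hne' with hlt | hlt
    · refine ⟨0, by norm_num, fun n => ?_⟩
      rw [show 2 * n - sh false = 2 * n + 1 by simp [sh],
        show 2 * n + 1 - sh false = 2 * (n + 1) by simp [sh]; ring, he, he, ho, ho]
      simp only [mul_add]
      omega
    · refine ⟨1, by norm_num, fun n => ?_⟩
      rw [show 2 * n - sh false = 2 * n + 1 by simp [sh],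
        show 2 * n + 1 - sh false = 2 * (n + 1) by simp [sh]; ring, he, he, ho, ho]
      simp only [mul_add]
      omega
  · rcases lt_or_gt_of_ne hne' with hlt | hlt
    · refine ⟨-1, by norm_num, fun n => ?_⟩
      rw [show 2 * n - sh true = 2 * (n + -1) + 1 by simp [sh]; ring,
        show 2 * n + 1 - sh true = 2 * n by simp [sh], he, he, ho, ho]
      simp only [mul_add]
      omega
    · refine ⟨0, by norm_num, fun n => ?_⟩
      rw [show 2 * n - sh true = 2 * (n + -1) + 1 by simp [sh]; ring,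
        show 2 * n + 1 - sh true = 2 * n by simp [sh], he, he, ho, ho]
      simp only [mul_add]
      omega

namespace Frame

variable {L : Type} (F : Frame L)

/-- the change of view of a move -/
def hh : L × Bool → ℝ ≃o ℝ
  | (s, true) => F.h s
  | (s, false) => (F.h s).symm

theorem hh_φ (σ : L × Bool) (j : ℤ) : F.hh σ (F.φ σ.1 j) = F.φ σ.1 (j - sh σ.2) := by
  obtain ⟨s, _ | _⟩ := σ
  · simp only [hh, sh]
    rw [OrderIso.symm_apply_eq, F.shift]
    congr 1
    ring
  · exact F.shift s j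

variable (N : ℕ) (m : ℕ → ℕ →₀ ℝ)

/-- vector of a move -/
noncomputable def gam (σ : L × Bool) : Lam →₀ ℝ := term N m (F.φ σ.1) (off σ.2)

/-- vector of a word -/
noncomputable def cw : List (L × Bool) → Lam →₀ ℝ
  | [] => 0
  | σ :: w => F.gam N m σ + (cw w).mapDomain (lift (F.hh σ).symm)

theorem gam_false (s : L) :
    F.gam N m (s, false) = - (F.gam N m (s, true)).mapDomain (lift (F.h s)) := by
  simp only [gam, off, map_term, F.shift]
  unfold term
  rw [← Finset.sum_neg_distrib]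
  refine Finset.sum_congr rfl fun j _ => ?_
  rw [← neg_smul, add_zero, ← sg_sub_one]
  rfl

theorem exists_family : ∀ (w : List (L × Bool)) (σ : L × Bool),
    List.IsChain (fun a b : L × Bool => a.1 ≠ b.1) (σ :: w) →
    ∃ (x : Fin (w.length + 1) → ℤ → ℝ) (o : Fin (w.length + 1) → ℤ),
      F.cw N m (σ :: w) = ∑ l, term N m (x l) (o l) ∧ (∀ l, |o l| ≤ 2 * w.length + 1) ∧
      (∀ l n, F.φ σ.1 (2 * n) ≤ x l (2 * n) ∧ x l (2 * n + 1) ≤ F.φ σ.1 (2 * n + 1)) ∧
      ∀ l l' n, x l (2 * n) < x l' (2 * n + 1)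
  | [], σ, _ => by
    refine ⟨fun _ => F.φ σ.1, fun _ => off σ.2, ?_, ?_, fun _ _ => ⟨le_rfl, le_rfl⟩,
      fun _ _ n => F.mono _ (by omega)⟩
    · simp [cw, gam]
    · intro _
      cases σ.2 <;> simp [off]
  | σ' :: w, σ, hc => by
    rw [List.isChain_cons_cons] at hc
    obtain ⟨x, o, h1, h2, h3, h4⟩ := exists_family w σ' hc.2
    obtain ⟨e, he, hg⟩ := F.gap σ.1 σ'.1 hc.1 σ.2
    set x' : Fin (w.length + 1) → ℤ → ℝ := fun l i => (F.hh σ).symm (x l (i + 2 * e)) with hx'
    have k1 : ∀ l n, F.φ σ.1 (2 * n) < x' l (2 * n) := by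
      intro l n
      simp only [hx']
      rw [OrderIso.lt_symm_apply, F.hh_φ, show 2 * n + 2 * e = 2 * (n + e) by ring]
      exact (hg n).1.trans_le (h3 l _).1
    have k2 : ∀ l n, x' l (2 * n + 1) < F.φ σ.1 (2 * n + 1) := by
      intro l n
      simp only [hx']
      rw [OrderIso.symm_apply_lt, F.hh_φ, show 2 * n + 1 + 2 * e = 2 * (n + e) + 1 by ring]
      exact (h3 l _).2.trans_lt (hg n).2
    have k3 : ∀ l l' n, x' l (2 * n) < x' l' (2 * n + 1) := by
      intro l l' n
      simp only [hx']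
      rw [OrderIso.lt_iff_lt, show 2 * n + 2 * e = 2 * (n + e) by ring,
        show 2 * n + 1 + 2 * e = 2 * (n + e) + 1 by ring]
      exact h4 l l' _
    refine ⟨Fin.cons (F.φ σ.1) x', Fin.cons (off σ.2) fun l => o l - 2 * e, ?_, ?_, ?_, ?_⟩
    · rw [cw, h1, Finsupp.mapDomain_finsetSum]
      refine Eq.trans ?_ (Fin.sum_univ_succ _).symm
      simp only [Fin.cons_zero, Fin.cons_succ, gam, map_term]
      congr 1
      refine Finset.sum_congr rfl fun l _ => ?_
      exact (term_shift N m (fun i => (F.hh σ).symm (x l i)) (o l) e).symm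
    · intro l
      refine Fin.cases ?_ (fun l => ?_) l
      · simp only [Fin.cons_zero, List.length_cons]
        cases σ.2 <;> simp [off] <;> omega
      · simp only [Fin.cons_succ, List.length_cons]
        have := abs_le.1 (h2 l)
        have := abs_le.1 he
        rw [abs_le]
        push_cast
        omega
    · intro l n
      refine Fin.cases ⟨le_rfl, le_rfl⟩ (fun l => ?_) l
      exact ⟨(k1 l n).le, (k2 l n).le⟩
    · intro l l' n
      refine Fin.cases ?_ (fun l => ?_) l <;> refine Fin.cases ?_ (fun l' => ?_) l'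
      · exact F.mono _ (by omega)
      · exact (k1 l' n).trans (k3 l' l' n)
      · exact (k3 l l n).trans (k2 l n)
      · exact k3 l l' n

theorem exists_family' (w : List (L × Bool)) (t : ℕ) (ht : w.length = t + 1)
    (hc : List.IsChain (fun a b : L × Bool => a.1 ≠ b.1) w) :
    ∃ (x : Fin (t + 1) → ℤ → ℝ) (o : Fin (t + 1) → ℤ),
      F.cw N m w = ∑ l, term N m (x l) (o l) ∧ (∀ l, |o l| ≤ ((2 * t + 1 : ℕ) : ℤ)) ∧
      ∀ l l' j, x l j < x l' (j + 1) := by
  obtain _ | ⟨σ, w⟩ := w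
  · simp at ht
  obtain rfl : w.length = t := by simpa using ht
  obtain ⟨x, o, h1, h2, h3, h4⟩ := F.exists_family N m w σ hc
  refine ⟨x, o, h1, fun l => by push_cast; exact h2 l, fun l l' j => ?_⟩
  obtain ⟨n, rfl | rfl⟩ := Int.even_or_odd' j
  · exact h4 l l' n
  · rw [show 2 * n + 1 + 1 = 2 * (n + 1) by ring]
    exact ((h3 l n).2.trans_lt (F.mono _ (by omega))).trans_le (h3 l' (n + 1)).1

theorem exists_finset [Finite L] (t : ℕ) : ∃ P : Finset Lam, ∀ w : List (L × Bool), w.length ≤ t →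
    (F.cw N m w).support ⊆ P ∧
      ∀ σ, ∀ y ∈ (F.cw N m w).support, lift (F.hh σ).symm y ∈ P := by
  have hfin : (⋃ w ∈ {w : List (L × Bool) | w.length ≤ t}, (((F.cw N m w).support : Set Lam) ∪
      ⋃ σ, lift (F.hh σ).symm '' (F.cw N m w).support)).Finite := by
    refine (List.finite_length_le _ t).biUnion fun w _ => (Finset.finite_toSet _).union ?_
    exact Set.finite_iUnion fun σ => (Finset.finite_toSet _).image _
  refine ⟨hfin.toFinset, fun w hw => ⟨fun y hy => ?_, fun σ y hy => ?_⟩⟩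
  · rw [Set.Finite.mem_toFinset]
    exact Set.mem_biUnion hw (Or.inl hy)
  · rw [Set.Finite.mem_toFinset]
    exact Set.mem_biUnion hw (Or.inr (Set.mem_iUnion.2 ⟨σ, y, hy, rfl⟩))

end Frame

end Crest.Agent.R140
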